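import Vale.Agent.P074.Disc

/-!
Existence of optimal maps and the stability estimate.
-/

namespace Vale.Agent.P074

open MeasureTheory Set Real Filter
open scoped ENNReal NNReal Topology

variable {d : ℕ} {K : Set (E d)} {R L : ℝ}

/-- correlation -/
noncomputable def cor (K : Set (E d)) (S : E d → E d) : ℝ := ∫ x, inner ℝ x (S x) ∂un K

theorem int_bd (h : Body K R) {S : E d → E d} (hS : AEStronglyMeasurable S (un K))
    (hb : ∀ᵐ x ∂un K, ‖S x‖ ≤ L) {F : E d × E d → ℝ} (hF : Continuous F) :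
    Integrable (fun x => F (x, S x)) (un K) := by
  have := h.prob
  obtain ⟨C, hC⟩ := (h.cpt.prod (isCompact_closedBall (0 : E d) L)).exists_bound_of_continuousOn
    hF.continuousOn
  refine (integrable_const C).mono'
    (hF.comp_aestronglyMeasurable (aestronglyMeasurable_id.prodMk hS)) ?_
  filter_upwards [h.mem, hb] with x h1 h2 using hC _ ⟨h1, by simpa using h2⟩

theorem sub_of_near (h : Body K R) {μ : Measure (E d)} {φ : E d → ℝ} {T S : E d → E d} {δ δ' : ℝ}
    (hT : Sub K L φ T 0) (nT : Near K μ δ T) (nS : Near K μ δ' S)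
    (hS : AEStronglyMeasurable S (un K)) (hb : ∀ᵐ x ∂un K, ‖S x‖ ≤ L) :
    ∃ η, Sub K L φ S η ∧ ∫ x, η x ∂un K ≤ cor K T - cor K S + R * (δ + δ') := by
  have hφ := hT.cont
  let g : E d → ℝ := fun z => sSup ((fun x => inner ℝ x z - φ x) '' K)
  have hne : K.Nonempty := h.int.mono interior_subset
  have g1 : ∀ z, ∀ x ∈ K, inner ℝ x z - φ x ≤ g z := fun z x hx =>
    le_csSup (h.cpt.bddAbove_image (by fun_prop)) (mem_image_of_mem _ hx)
  have g2 : ∀ z t, (∀ x ∈ K, inner ℝ x z - φ x ≤ t) → g z ≤ t := fun z t ht =>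
    csSup_le (hne.image _) (forall_mem_image.2 ht)
  have g3 : LipschitzWith ⟨R, h.pos.le⟩ g := LipschitzWith.of_le_add_mul _ fun z z' =>
    g2 _ _ fun x hx => by
      have e1 := g1 z' x hx
      have e2 := (real_inner_le_norm x (z - z')).trans
        (mul_le_mul_of_nonneg_right (h.bd x hx) (norm_nonneg _))
      rw [inner_sub_right] at e2
      rw [dist_eq_norm]
      change _ ≤ _ + R * _
      linarith
  have g4 := g3.continuous
  have i1 : Integrable (fun x => g (S x)) (un K) := int_bd h hS hb (F := fun p => g p.2) (by fun_prop)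
  have i2 : Integrable (fun x => inner ℝ x (S x)) (un K) :=
    int_bd h hS hb (F := fun p => inner ℝ p.1 p.2) (by fun_prop)
  have i3 : Integrable (fun x => g (T x)) (un K) :=
    int_bd h hT.meas hT.bd (F := fun p => g p.2) (by fun_prop)
  have i4 : Integrable (fun x => inner ℝ x (T x)) (un K) :=
    int_bd h hT.meas hT.bd (F := fun p => inner ℝ p.1 p.2) (by fun_prop)
  refine ⟨fun x => φ x + g (S x) - inner ℝ x (S x), ⟨hφ, hT.lip, hS, hb,
    ((h.intg hφ).add i1).sub i2, Eventually.of_forall fun x x' hx' => ?_⟩, ?_⟩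
  · have := g1 (S x) x' hx'
    rw [inner_sub_left]; linarith
  · have e1 := integral_mono_ae i3 (i4.sub (h.intg hφ)) (by
      filter_upwards [hT.sub] with x hx
      refine g2 _ _ fun x' hx' => ?_
      have := hx x' hx'
      simp only [inner_sub_left, Pi.zero_apply, Pi.sub_apply] at this ⊢
      linarith)
    rw [integral_sub' i4 (h.intg hφ)] at e1
    rw [integral_sub (f := fun x => φ x + g (S x)) ((h.intg hφ).add i1) i2,
      integral_add (h.intg hφ) i1]
    have e2 := (abs_le.1 (nT g _ g3)).1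
    have e3 := (abs_le.1 (nS g _ g3)).2
    change -(R * δ) ≤ _ at e2
    change _ ≤ R * δ' at e3
    unfold cor
    linarith

theorem cor_le (h : Body K R) {μ : Measure (E d)} {φ : E d → ℝ} {T S : E d → E d} {δ δ' : ℝ}
    (hT : Sub K L φ T 0) (nT : Near K μ δ T) (nS : Near K μ δ' S)
    (hS : AEStronglyMeasurable S (un K)) (hb : ∀ᵐ x ∂un K, ‖S x‖ ≤ L) :
    cor K S ≤ cor K T + R * (δ + δ') := by
  obtain ⟨η, h1, h2⟩ := sub_of_near h hT nT nS hS hb
  have := integral_nonneg_of_ae (h1.nonneg h)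
  linarith

theorem l1_limit {α F : Type} [MeasurableSpace α] {ρ : Measure α} [NormedAddCommGroup F]
    [CompleteSpace F] [MeasurableSpace F] [BorelSpace F] {T : ℕ → α → F}
    (hT : ∀ n, Integrable (T n) ρ)
    (hc : ∀ ε > 0, ∃ N, ∀ m ≥ N, ∀ n ≥ N, ∫ x, ‖T m x - T n x‖ ∂ρ < ε) :
    ∃ T0, Measurable T0 ∧ Integrable T0 ρ ∧
      Tendsto (fun n => ∫ x, ‖T n x - T0 x‖ ∂ρ) atTop (𝓝 0) := by
  have e : ∀ n (G : α →₁[ρ] F), dist ((hT n).toL1 _) G = ∫ x, ‖T n x - G x‖ ∂ρ := by
    intro n G
    rw [L1.dist_eq_integral_dist]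
    refine integral_congr_ae ?_
    filter_upwards [(hT n).coeFn_toL1] with x hx
    rw [hx, dist_eq_norm]
  have h1 : CauchySeq fun n => (hT n).toL1 _ := by
    refine Metric.cauchySeq_iff.2 fun ε hε => (hc ε hε).imp fun N hN m hm n hn => ?_
    rw [e, integral_congr_ae (g := fun x => ‖T m x - T n x‖) (by
      filter_upwards [(hT n).coeFn_toL1] with x hx
      rw [hx])]
    exact hN m hm n hn
  obtain ⟨G, hG⟩ := cauchySeq_tendsto_of_complete h1
  rw [tendsto_iff_dist_tendsto_zero] at hG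
  simp only [e] at hG
  exact ⟨G, (Lp.stronglyMeasurable G).measurable, L1.integrable_coeFn G, hG⟩

theorem near_map {μ : Measure (E d)} {S : E d → E d} (hS : Measurable S)
    (e : (un K).map S = μ) : Near K μ 0 S := fun f k hf => by
  rw [← e, integral_map hS.aemeasurable hf.continuous.aestronglyMeasurable]; simp

theorem exists_map (h : Body K R) (hd : 0 < d) {Y : Set (E d)} (hY : IsCompact Y) (L0 : 0 ≤ L)
    (hL : ∀ z ∈ Y, ‖z‖ + 1 ≤ L) (μ : Measure (E d)) [IsProbabilityMeasure μ]
    (hμ : ∀ᵐ z ∂μ, z ∈ Y) : ∃ T0, Measurable T0 ∧ (un K).map T0 = μ ∧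
      ∀ δ S, Near K μ δ S → AEStronglyMeasurable S (un K) → (∀ᵐ x ∂un K, ‖S x‖ ≤ L) →
        cor K S ≤ cor K T0 + R * δ := by
  have := h.prob
  have R0 := h.pos
  obtain ⟨r, hr, hi⟩ := interp h
  have h1 : ∀ n : ℕ, ∃ φ T, Sub K L φ T 0 ∧ Near K μ (1 / (n + 1)) T := fun n => by
    obtain ⟨φ, -, T, -, -, a, -, b, -⟩ := exists_pair h hd hY hL (μ.prod μ)
      (Measure.ae_prod_mem_iff_ae_ae_mem (hY.prod hY).measurableSet |>.2 (by
        filter_upwards [hμ] with x hx
        filter_upwards [hμ] with y hy using ⟨hx, hy⟩))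
      (δ := 1 / (n + 1)) (by positivity) (by
        rw [div_le_one (by positivity)]; linarith [(Nat.cast_nonneg n : (0 : ℝ) ≤ n)])
    exact ⟨φ, T, a, by simpa using b⟩
  choose φ T hT nT using h1
  have iT : ∀ n, Integrable (T n) (un K) := fun n => (integrable_const L).mono' (hT n).meas (hT n).bd
  obtain ⟨T0, m0, i0, l0⟩ := l1_limit iT fun ε hε => by
    obtain ⟨τ, ⟨t1, t2⟩, t0⟩ : ∃ τ : ℝ, (τ < r ∧ d * (20 * L ^ 2 * (d * (τ / r))) < ε ^ 2 / 2) ∧
        0 < τ := by
      refine (Eventually.and (Eventually.filter_mono nhdsWithin_le_nhds ?_)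
        (self_mem_nhdsWithin : ∀ᶠ τ in 𝓝[>] (0 : ℝ), 0 < τ)).exists
      exact Eventually.and (ContinuousAt.eventually_lt (by fun_prop) (by fun_prop) hr)
        (ContinuousAt.eventually_lt (by fun_prop) (by fun_prop) (by simp; positivity))
    have t3 : Tendsto (fun N : ℕ => d * (12 * L * (R * (4 * (1 / ((N : ℝ) + 1)))) / τ)) atTop
        (𝓝 (d * (12 * L * (R * (4 * 0)) / τ))) :=
      (((((tendsto_one_div_add_atTop_nhds_zero_nat.const_mul 4).const_mul R).const_mul _).div_const
        τ).const_mul _)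
    obtain ⟨N, hN⟩ := (t3.eventually (gt_mem_nhds (show _ < ε ^ 2 / 2 by simp; positivity))).exists
    refine ⟨N, fun m hm n hn => ?_⟩
    obtain ⟨η, a1, a2⟩ := sub_of_near h (hT n) (nT n) (nT m) (hT m).meas (hT m).bd
    have a3 := cor_le h (hT m) (nT m) (nT n) (hT n).meas (hT n).bd
    have a4 := hi L0 (hT n) a1 0 τ t0 t1.le
    have a5 : (1 : ℝ) / (m + 1) ≤ 1 / (N + 1) := Nat.one_div_le_one_div hm
    have a6 : (1 : ℝ) / (n + 1) ≤ 1 / (N + 1) := Nat.one_div_le_one_div hn
    have a7 : ∫ x, η x ∂un K ≤ R * (4 * (1 / ((N : ℝ) + 1))) := by nlinarith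
    simp only [sub_self, Pi.zero_apply, integral_zero, zero_add, mul_zero, zero_div,
      ne_eq, OfNat.ofNat_ne_zero, not_false_eq_true, zero_pow, mul_add] at a4
    have a8 : d * (12 * L * (∫ x, η x ∂un K) / τ) ≤
        d * (12 * L * (R * (4 * (1 / ((N : ℝ) + 1)))) / τ) := by gcongr
    have i1 := ((iT m).sub (iT n)).norm
    have i2 : Integrable (fun x => ‖T m x - T n x‖ ^ 2) (un K) :=
      (integrable_const (4 * L ^ 2)).mono' (i1.1.pow 2) (by
        filter_upwards [(hT m).bd, (hT n).bd] with x b1 b2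
        rw [Real.norm_eq_abs, abs_pow, abs_norm]
        nlinarith [norm_sub_le (T m x) (T n x), norm_nonneg (T m x - T n x)])
    have a9 := integral_mono (i1.const_mul (2 * ε)) (i2.add (integrable_const (ε ^ 2))) fun x => by
      simp only [Pi.add_apply, Pi.sub_apply]
      nlinarith [sq_nonneg (‖T m x - T n x‖ - ε)]
    rw [integral_const_mul, integral_add' i2 (integrable_const _)] at a9
    simp only [Pi.sub_apply, integral_const, probReal_univ, smul_eq_mul, one_mul] at a9
    nlinarith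
  have lim : ∀ {a b c : ℝ}, (∀ n : ℕ, a ≤ b + c * (1 / (n + 1) + ∫ x, ‖T n x - T0 x‖ ∂un K)) →
      a ≤ b := fun {a b c} H => ge_of_tendsto' (x := atTop) (by
    simpa using ((tendsto_one_div_add_atTop_nhds_zero_nat.add l0).const_mul c).const_add b) H
  refine ⟨T0, m0, ?_, fun δ S nS mS bS => lim (c := R) fun n => ?_⟩
  · have : IsProbabilityMeasure ((un K).map T0) := Measure.isProbabilityMeasure_map m0.aemeasurable
    let μ1 : ProbabilityMeasure (E d) := ⟨(un K).map T0, this⟩
    let μ2 : ProbabilityMeasure (E d) := ⟨μ, inferInstance⟩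
    have h2 : Tendsto (fun _ : ℕ => μ1) atTop (𝓝 μ2) := by
      refine tendsto_iff_forall_lipschitz_integral_tendsto.2 fun f _ ⟨k, hf⟩ => ?_
      refine tendsto_const_nhds_iff.2 ?_
      change ∫ z, f z ∂(un K).map T0 = ∫ z, f z ∂μ
      rw [integral_map m0.aemeasurable hf.continuous.aestronglyMeasurable, ← sub_eq_zero,
        ← abs_nonpos_iff]
      refine lim (c := k) fun n => ?_
      have i1 : ∀ S, Integrable S (un K) → Integrable (fun x => f (S x)) (un K) := fun S hS => by
        have := (memLp_one_iff_integrable.1 ((hf.sub (LipschitzWith.const (f 0))).comp_memLp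
          (by simp) (memLp_one_iff_integrable.2 hS))).add (integrable_const (f 0))
        simpa [Function.comp_def, Pi.add_def] using this
      have e1 : |∫ x, f (T n x) ∂un K - ∫ x, f (T0 x) ∂un K| ≤
          k * ∫ x, ‖T n x - T0 x‖ ∂un K := by
        rw [← integral_sub (i1 _ (iT n)) (i1 _ i0), ← integral_const_mul, ← Real.norm_eq_abs]
        exact norm_integral_le_of_norm_le (((iT n).sub i0).norm.const_mul _)
          (Eventually.of_forall fun x => by simpa [dist_eq_norm] using hf.dist_le_mul _ _)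
      have e2 := abs_le.1 (nT n f k hf)
      have e3 := abs_le.1 e1
      exact abs_le.2 ⟨by linarith, by linarith⟩
    have h3 : μ1 = μ2 := tendsto_const_nhds_iff.1 h2
    exact congrArg Subtype.val h3
  · have e1 := cor_le h (hT n) (nT n) nS mS bS
    have i1 : ∀ S, Integrable S (un K) → Integrable (fun x => inner ℝ x (S x)) (un K) :=
      fun S hS => (hS.norm.const_mul R).mono' (aestronglyMeasurable_id.inner hS.1) (by
        filter_upwards [h.mem] with x hx
        exact (abs_real_inner_le_norm _ _).trans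
          (mul_le_mul_of_nonneg_right (h.bd x hx) (norm_nonneg _)))
    have e2 : cor K (T n) - cor K T0 ≤ R * ∫ x, ‖T n x - T0 x‖ ∂un K := by
      rw [cor, cor, ← integral_sub (i1 _ (iT n)) (i1 _ i0), ← integral_const_mul]
      refine integral_mono_ae ((i1 _ (iT n)).sub (i1 _ i0)) (((iT n).sub i0).norm.const_mul _) ?_
      filter_upwards [h.mem] with x hx
      rw [← inner_sub_right]
      exact (real_inner_le_norm _ _).trans
        (mul_le_mul_of_nonneg_right (h.bd x hx) (norm_nonneg _))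
    linarith

end Vale.Agent.P074
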