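import Vale.Agent.P074.PL

/-!
Cellwise use of the Prekopa Leindler inequality with a Gaussian weight.
-/

namespace Vale.Agent.P074

open MeasureTheory Set Real
open scoped ENNReal

/-- Euclidean space -/
abbrev E (d : ℕ) := EuclideanSpace ℝ (Fin d)

variable {d : ℕ}

/-- the uniform measure -/
noncomputable def un (K : Set (E d)) : Measure (E d) := (volume K)⁻¹ • volume.restrict K

theorem setIntegral_un {K A : Set (E d)} (hA : MeasurableSet A) (hAK : A ⊆ K) (f : E d → ℝ) :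
    ∫ x in A, f x ∂un K = (volume K)⁻¹.toReal * ∫ x in A, f x := by
  rw [un, Measure.restrict_smul, integral_smul_measure, Measure.restrict_restrict hA,
    inter_eq_left.2 hAK, smul_eq_mul]

theorem pl_set {K A B C : Set (E d)} (hK : IsCompact K) (hA : MeasurableSet A)
    (hB : MeasurableSet B) (hC : MeasurableSet C) (hAK : A ⊆ K) (hBK : B ⊆ K) (hCK : C ⊆ K)
    {f g h : E d → ℝ} (hf : Continuous f) (hg : Continuous g) (hh : Continuous h)
    (f0 : ∀ x, 0 ≤ f x) (g0 : ∀ x, 0 ≤ g x) (h0 : ∀ x, 0 ≤ h x)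
    (H : ∀ x ∈ A, ∀ y ∈ B, (1 / 2 : ℝ) • (x + y) ∈ C ∧
      f x * g y ≤ h ((1 / 2 : ℝ) • (x + y)) ^ 2) :
    (∫ x in A, f x ∂un K) * ∫ x in B, g x ∂un K ≤ (∫ x in C, h x ∂un K) ^ 2 := by
  have e : ∀ {S : Set (E d)} {k : E d → ℝ}, MeasurableSet S → S ⊆ K → Continuous k →
      (∀ x, 0 ≤ k x) → ∫⁻ x, S.indicator (fun x => ENNReal.ofReal (k x)) x =
        ENNReal.ofReal (∫ x in S, k x) := by
    intro S k hS hSK hk k0
    rw [lintegral_indicator hS, ofReal_integral_eq_lintegral_ofReal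
      ((hk.continuousOn.integrableOn_compact hK).mono_set hSK) (Filter.Eventually.of_forall k0)]
  have := pl_euc d (A.indicator fun x => ENNReal.ofReal (f x))
    (B.indicator fun x => ENNReal.ofReal (g x)) (C.indicator fun x => ENNReal.ofReal (h x))
    (hf.measurable.ennreal_ofReal.indicator hA) (hg.measurable.ennreal_ofReal.indicator hB)
    (hh.measurable.ennreal_ofReal.indicator hC) fun x y => by
      by_cases hx : x ∈ A
      · by_cases hy : y ∈ B
        · rw [indicator_of_mem hx, indicator_of_mem hy, indicator_of_mem (H x hx y hy).1,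
            ← ENNReal.ofReal_mul (f0 x), ← ENNReal.ofReal_pow (h0 _)]
          exact ENNReal.ofReal_le_ofReal (H x hx y hy).2
        · simp [hy]
      · simp [hx]
  rw [e hA hAK hf f0, e hB hBK hg g0, e hC hCK hh h0,
    ← ENNReal.ofReal_mul (integral_nonneg f0), ← ENNReal.ofReal_pow (integral_nonneg h0),
    ENNReal.ofReal_le_ofReal_iff (by positivity)] at this
  rw [setIntegral_un hA hAK, setIntegral_un hB hBK, setIntegral_un hC hCK, mul_mul_mul_comm,
    mul_pow, sq]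
  exact mul_le_mul_of_nonneg_left this (by positivity)

theorem intOn {K A : Set (E d)} (hK : IsCompact K) (h0 : volume K ≠ 0) {f : E d → ℝ}
    (hf : Continuous f) : IntegrableOn f A (un K) :=
  ((hf.continuousOn.integrableOn_compact hK).smul_measure
    (ENNReal.inv_ne_top.2 h0)).integrableOn

theorem jensen {μ : Measure (E d)} {w a : E d → ℝ} (h1 : Integrable w μ)
    (h2 : Integrable (fun x => w x * a x) μ) (h3 : Integrable (fun x => w x * exp (a x)) μ)
    (w0 : ∀ x, 0 ≤ w x) (hα : 0 < ∫ x, w x ∂μ) :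
    (∫ x, w x ∂μ) * exp ((∫ x, w x * a x ∂μ) / ∫ x, w x ∂μ) ≤ ∫ x, w x * exp (a x) ∂μ := by
  set t := (∫ x, w x * a x ∂μ) / ∫ x, w x ∂μ with ht
  have h4 : ∫ x, (exp t * (1 - t) * w x + exp t * (w x * a x)) ∂μ = (∫ x, w x ∂μ) * exp t := by
    rw [integral_add (h1.const_mul _) (h2.const_mul _), integral_const_mul, integral_const_mul]
    have : ∫ x, w x * a x ∂μ = t * ∫ x, w x ∂μ := by rw [ht]; field_simp
    rw [this]; ring
  rw [← h4]
  refine integral_mono ((h1.const_mul _).add (h2.const_mul _)) h3 fun x => ?_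
  have h5 : exp t * (a x - t + 1) ≤ exp (a x) := by
    refine (mul_le_mul_of_nonneg_left (add_one_le_exp _) (exp_pos t).le).trans (le_of_eq ?_)
    rw [← exp_add]; congr 1; ring
  have := mul_le_mul_of_nonneg_left h5 (w0 x)
  simp only
  linarith

/-- the Gaussian weight -/
noncomputable def gw (c : ℝ) (x : E d) : ℝ := exp (-(c * ‖x‖ ^ 2))

theorem gw_cont (c : ℝ) : Continuous (gw (d := d) c) := by unfold gw; fun_prop

theorem cell1 {K A B C : Set (E d)} (hK : IsCompact K) (h0 : volume K ≠ 0) (hA : MeasurableSet A)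
    (hB : MeasurableSet B) (hC : MeasurableSet C) (hAK : A ⊆ K) (hBK : B ⊆ K) (hCK : C ⊆ K)
    (H : ∀ x ∈ A, ∀ y ∈ B, (1 / 2 : ℝ) • (x + y) ∈ C) {c : ℝ} (hc : 0 < c) {a : E d → ℝ}
    (ha : Continuous a) {L : ℝ} (hL : ∀ x ∈ K, ∀ y ∈ K, a x - a y ≤ L * ‖x - y‖)
    (hα : 0 < ∫ x in A, gw c x ∂un K) (hβ : 0 < ∫ x in B, gw c x ∂un K) :
    √((∫ x in A, gw c x ∂un K) * ∫ x in B, gw c x ∂un K) *
      (1 + (((∫ x in A, gw c x * a x ∂un K) / ∫ x in A, gw c x ∂un K) -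
        (∫ x in B, gw c x * a x ∂un K) / ∫ x in B, gw c x ∂un K) / 2 - L ^ 2 / (4 * c)) ≤
      ∫ x in C, gw c x ∂un K := by
  have hw := gw_cont (d := d) c
  have w0 : ∀ x : E d, 0 ≤ gw c x := fun x => (exp_pos _).le
  have h1 := pl_set hK hA hB hC hAK hBK hCK (f := fun x => gw c x * exp (a x))
    (g := fun x => gw c x * exp (-a x)) (h := fun x => exp (L ^ 2 / (4 * c)) * gw c x)
    (by fun_prop) (by fun_prop) (by fun_prop) (fun x => mul_nonneg (w0 x) (exp_pos _).le)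
    (fun x => mul_nonneg (w0 x) (exp_pos _).le) (fun x => mul_nonneg (exp_pos _).le (w0 x))
    fun x hx y hy => ⟨H x hx y hy, by
      simp only [gw, ← exp_add, ← exp_nat_mul, exp_le_exp]
      have e1 := hL x (hAK hx) y (hBK hy)
      have e2 := parallelogram_law_with_norm ℝ x y
      have e3 : ‖(1 / 2 : ℝ) • (x + y)‖ = ‖x + y‖ / 2 := by
        rw [norm_smul]; norm_num; ring
      have e4 : L * ‖x - y‖ ≤ L ^ 2 / (2 * c) + c * ‖x - y‖ ^ 2 / 2 := by
        have : L ^ 2 / (2 * c) + c * ‖x - y‖ ^ 2 / 2 - L * ‖x - y‖ =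
            (L - c * ‖x - y‖) ^ 2 / (2 * c) := by field_simp; ring
        have : 0 ≤ (L - c * ‖x - y‖) ^ 2 / (2 * c) := by positivity
        linarith
      have e5 : L ^ 2 / (2 * c) = 2 * (L ^ 2 / (4 * c)) := by field_simp; ring
      rw [e3]
      push_cast
      nlinarith⟩
  have h2 := jensen (μ := (un K).restrict A) (w := gw c) (a := a) (intOn hK h0 hw)
    (intOn hK h0 (by fun_prop)) (intOn hK h0 (by fun_prop)) w0 hα
  have h3 := jensen (μ := (un K).restrict B) (w := gw c) (a := fun x => -a x) (intOn hK h0 hw)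
    (intOn hK h0 (by fun_prop)) (intOn hK h0 (by fun_prop)) w0 hβ
  simp only [mul_neg, integral_neg, integral_const_mul] at h1 h3
  generalize ∫ x in A, gw c x ∂un K = α at *
  generalize ∫ x in B, gw c x ∂un K = β at *
  have hγ : 0 ≤ ∫ x in C, gw c x ∂un K := integral_nonneg w0
  generalize ∫ x in C, gw c x ∂un K = γ at *
  generalize (∫ x in A, gw c x * a x ∂un K) / α = s at *
  rw [neg_div] at h3
  generalize (∫ x in B, gw c x * a x ∂un K) / β = t at *
  generalize L ^ 2 / (4 * c) = u at *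
  have h4 := (mul_le_mul h2 h3 (by positivity) (le_trans (by positivity) h2)).trans h1
  have h5 : √(α * β) * exp ((s - t) / 2 - u) ≤ γ := by
    refine abs_le_of_sq_le_sq' ?_ hγ |>.2
    rw [mul_pow, sq_sqrt (by positivity)]
    have e1 : exp ((s - t) / 2 - u) ^ 2 * exp u ^ 2 = exp s * exp (-t) := by
      simp only [← exp_nat_mul, ← exp_add]; congr 1; push_cast; ring
    have e2 : 0 < exp u ^ 2 := by positivity
    refine le_of_mul_le_mul_right ?_ e2
    rw [mul_assoc, e1]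
    nlinarith
  refine le_trans (mul_le_mul_of_nonneg_left ?_ (sqrt_nonneg _)) h5
  have := add_one_le_exp ((s - t) / 2 - u)
  linarith

theorem lip_exp {c R : ℝ} (hc : 0 < c) (hR : c * R ^ 2 ≤ 1 / 2) {x y : E d} (hx : ‖x‖ ≤ R)
    (hy : ‖y‖ ≤ R) : exp (c * ‖x‖ ^ 2) ≤ 2 ∧
      exp (c * ‖x‖ ^ 2) - exp (c * ‖y‖ ^ 2) ≤ 4 * c * R * ‖x - y‖ := by
  have h1 : c * ‖x‖ ^ 2 ≤ 1 / 2 :=
    le_trans (mul_le_mul_of_nonneg_left (pow_le_pow_left₀ (norm_nonneg _) hx 2) hc.le) hR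
  have h2 : exp (c * ‖x‖ ^ 2) ≤ 2 := (exp_le_exp.2 h1).trans
    ((Real.exp_bound_div_one_sub_of_interval (x := 1 / 2) (by norm_num) (by norm_num)).trans
      (by norm_num))
  refine ⟨h2, ?_⟩
  have h3 : exp (c * ‖x‖ ^ 2) * (c * ‖y‖ ^ 2 - c * ‖x‖ ^ 2 + 1) ≤ exp (c * ‖y‖ ^ 2) := by
    refine (mul_le_mul_of_nonneg_left (add_one_le_exp _) (exp_pos _).le).trans (le_of_eq ?_)
    rw [← exp_add]; congr 1; ring
  have h4 : ‖x‖ - ‖y‖ ≤ ‖x - y‖ := norm_sub_norm_le x y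
  have h5 : c * ‖x‖ ^ 2 - c * ‖y‖ ^ 2 ≤ 2 * c * R * ‖x - y‖ := by
    have : ‖x‖ ^ 2 - ‖y‖ ^ 2 ≤ 2 * R * ‖x - y‖ := by
      nlinarith [norm_nonneg x, norm_nonneg y, norm_nonneg (x - y)]
    nlinarith
  have h6 : 0 ≤ 2 * c * R * ‖x - y‖ := by
    have : 0 ≤ R := (norm_nonneg _).trans hx
    positivity
  nlinarith [exp_pos (c * ‖x‖ ^ 2)]

theorem alg1 {a b α β : ℝ} (ha : 0 < a) (h1 : a / 2 ≤ b) (h2 : b ≤ 3 * a / 2) (h3 : a / 2 ≤ α)
    (h4 : α ≤ a) (h5 : b / 2 ≤ β) (h6 : β ≤ b) :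
    a / 3 ≤ √(α * β) ∧ (α + β) / 2 - √(α * β) ≤ (α - β) ^ 2 / a ∧
      (α - β) ^ 2 / a ≤ 5 * (a * (a / α - b / β) ^ 2) + 2 * ((b - a) ^ 2 / a) := by
  have hα : 0 < α := by linarith
  have hβ : 0 < β := by linarith
  have e1 : a / 3 ≤ √(α * β) := le_sqrt_of_sq_le (by nlinarith)
  refine ⟨e1, ?_, ?_⟩
  · have e2 := sq_sqrt (show 0 ≤ α * β by positivity)
    generalize √(α * β) = r at *
    rw [le_div_iff₀ ha]
    have e3 : r ≤ (α + β) / 2 := abs_le_of_sq_le_sq' (by nlinarith [sq_nonneg (α - β)])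
      (by positivity) |>.2
    nlinarith
  · set D := a / α - b / β with hD
    have e2 : a * (β - α) = α * (D * β + (b - a)) := by rw [hD]; field_simp; ring
    have e3 : (α - β) ^ 2 ≤ (D * β + (b - a)) ^ 2 := by
      have : a ^ 2 * (α - β) ^ 2 = α ^ 2 * (D * β + (b - a)) ^ 2 := by
        rw [← mul_pow, ← mul_pow, ← e2]; ring
      have h7 : α ^ 2 ≤ a ^ 2 := pow_le_pow_left₀ hα.le h4 2
      refine le_of_mul_le_mul_left ?_ (show 0 < a ^ 2 by positivity)
      rw [this]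
      exact mul_le_mul_of_nonneg_right h7 (sq_nonneg _)
    have e4 : β ^ 2 ≤ 5 / 2 * a ^ 2 := by nlinarith
    have e5 : D ^ 2 * β ^ 2 ≤ D ^ 2 * (5 / 2 * a ^ 2) := mul_le_mul_of_nonneg_left e4 (sq_nonneg _)
    rw [div_le_iff₀ ha, add_mul, mul_assoc 2, div_mul_cancel₀ _ ha.ne']
    nlinarith [sq_nonneg (D * β - (b - a))]

end Vale.Agent.P074
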