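import Vale.Agent.P074.Semi

/-!
Lipschitz stability of the semi-discrete potentials.
-/

namespace Vale.Agent.P074

open MeasureTheory Set Real Filter
open scoped ENNReal Topology

variable {d : ℕ} {K : Set (E d)} {R : ℝ} {I : Type} [Fintype I] [Nonempty I]
  {y v : I → E d} {ψ ψ' m m' : I → ℝ}

theorem stab_cell (h : Body K R) (hy : Function.Injective y) (ho : Opt K m y ψ)
    (ho' : Opt K m' y ψ') (m0 : ∀ i, 0 < m i) (hab1 : ∀ i, m i / 2 ≤ m' i)
    (hab2 : ∀ i, m' i ≤ 3 * m i / 2) (v : I → E d) {s : ℝ} (hs : 0 < s) :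
    ∑ i, ∫ x in cell K y ψ i, inner ℝ x (v i) ∂un K -
      ∑ i, ∫ x in cell K y ψ' i, inner ℝ x (v i) ∂un K ≤
      12 * (∑ i, (m' i - m i) ^ 2 / m i) / s + 26000 * R ^ 2 * s * ∑ i, m i * ‖v i‖ ^ 2 := by
  rw [← Finset.sum_sub_distrib]
  refine stab h.cpt h.vol h.pos h.bd (C := cell K y fun i => (ψ i + ψ' i) / 2) (cell_meas h y ψ)
    (cell_meas h y ψ') (cell_meas h y _) (fun _ _ hx => hx.1) (fun _ _ hx => hx.1)
    (fun _ _ hx => hx.1) (fun i x hx z hz => ⟨?_, fun j hj => ?_⟩)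
    (fun f hf => sum_cells h hy ψ (h.intg hf)) (fun f hf => sum_cells h hy ψ' (h.intg hf))
    (cell_disj K y _) ho ho' m0 hab1 hab2 v hs
  · rw [smul_add]
    exact h.cvx hx.1 hz.1 (by norm_num) (by norm_num) (by norm_num)
  · have h1 := hx.2 j hj
    have h2 := hz.2 j hj
    simp only [aff, real_inner_smul_left, inner_add_left] at h1 h2 ⊢
    linarith

omit [Nonempty I] in
theorem mom_le (h : Body K R) (y : I → E d) (ψ : I → ℝ) (v : I → E d) :
    |∑ i, ∫ x in cell K y ψ i, inner ℝ x (v i) ∂un K| ≤ ∑ i, R * ‖v i‖ := by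
  have := h.prob
  refine (Finset.abs_sum_le_sum_abs _ _).trans (Finset.sum_le_sum fun i _ => ?_)
  rw [← Real.norm_eq_abs]
  refine (norm_setIntegral_le_of_norm_le_const (C := R * ‖v i‖) (measure_lt_top _ _)
    fun x hx => ?_).trans (mul_le_of_le_one_right (mul_nonneg h.pos.le (norm_nonneg _))
      measureReal_le_one)
  exact (abs_real_inner_le_norm _ _).trans
    (mul_le_mul_of_nonneg_right (h.bd x hx.1) (norm_nonneg _))

omit [Nonempty I] in
theorem mom_add (h : Body K R) (y : I → E d) (ψ : I → ℝ) (w v : I → E d) (t : ℝ) :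
    ∑ i, ∫ x in cell K y ψ i, inner ℝ x (w i + t • v i) ∂un K =
      ∑ i, ∫ x in cell K y ψ i, inner ℝ x (w i) ∂un K +
        t * ∑ i, ∫ x in cell K y ψ i, inner ℝ x (v i) ∂un K := by
  rw [Finset.mul_sum, ← Finset.sum_add_distrib]
  refine Finset.sum_congr rfl fun i _ => ?_
  simp only [inner_add_right, real_inner_smul_right]
  rw [integral_add (h.intg (by fun_prop)).integrableOn (h.intg (by fun_prop)).integrableOn,
    integral_const_mul]

theorem chain (h : Body K R) (hy : ∀ t : ℚ, Function.Injective fun i => y i + (t : ℝ) • v i)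
    (m0 : ∀ i, 0 < m i) (hm : ∑ i, m i = 1) (hm' : ∑ i, m' i = 1) (hab1 : ∀ i, m i / 2 ≤ m' i)
    (hab2 : ∀ i, m' i ≤ 3 * m i / 2) {ψ0 ψ1 : I → ℝ} (h1 : Opt K m (y + v) ψ1)
    (h0 : Opt K m' y ψ') {s : ℝ} (hs : 0 < s) :
    Jf K m (y + v) ψ1 - Jf K m' (y + v) ψ ≤ Jf K m y ψ0 - Jf K m' y ψ' +
      (12 * (∑ i, (m' i - m i) ^ 2 / m i) / s + 26000 * R ^ 2 * s * ∑ i, m i * ‖v i‖ ^ 2) := by
  set b := 12 * (∑ i, (m' i - m i) ^ 2 / m i) / s + 26000 * R ^ 2 * s * ∑ i, m i * ‖v i‖ ^ 2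
  have m0' : ∀ i, 0 < m' i := fun i => by linarith [m0 i, hab1 i]
  choose p hp using fun t : ℚ => exists_opt h (hy t) m0 hm
  choose p' hp' using fun t : ℚ => exists_opt h (hy t) m0' hm'
  let Y : ℚ → I → E d := fun t i => y i + (t : ℝ) • v i
  let M : ℚ → ℝ := fun t => ∑ i, ∫ x in cell K (Y t) (p t) i, inner ℝ x (v i) ∂un K
  let D : ℚ → ℝ := fun t => Jf K m (Y t) (p t) - Jf K m' (Y t) (p' t)
  have step : ∀ t τ : ℚ, 0 ≤ τ → D (t + τ) - τ * M (t + τ) ≤ D t - τ * M t + τ * b := by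
    intro t τ hτ
    have e1 := J_ge h (hy t) (hp' t) (Y (t + τ)) (p' (t + τ))
    have e2 := J_ge h (hy (t + τ)) (hp (t + τ)) (Y t) (p t)
    have e3 : ∀ i, Y (t + τ) i = Y t i + (τ : ℝ) • v i := fun i => by
      simp only [Y]; push_cast; module
    have e4 : ∀ i, Y t i = Y (t + τ) i + (-τ : ℝ) • v i := fun i => by rw [e3]; module
    simp only [e3] at e1
    simp only [e4] at e2
    rw [mom_add h, ← J_eq h (hy t) (hp' t)] at e1
    rw [mom_add h, ← J_eq h (hy (t + τ)) (hp (t + τ))] at e2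
    have e5 := mul_le_mul_of_nonneg_left (stab_cell h (hy t) (hp t) (hp' t) m0 hab1 hab2 v hs)
      (show (0 : ℝ) ≤ τ by exact_mod_cast hτ)
    simp only [D, M]
    linarith
  have iter : ∀ τ : ℚ, 0 ≤ τ → ∀ k : ℕ, D (k * τ) - τ * M (k * τ) ≤ D 0 - τ * M 0 + k * τ * b := by
    intro τ hτ k
    induction k with
    | zero => simp
    | succ k ih =>
      have := step (k * τ) τ hτ
      push_cast
      rw [add_mul, one_mul]
      linarith
  have hD : D 1 ≤ D 0 + b := by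
    have h2 : ∀ N : ℕ, D 1 ≤ D 0 + b + (1 / (N + 1)) * (2 * ∑ i, R * ‖v i‖) := by
      intro N
      have e1 := iter (1 / (N + 1)) (by positivity) (N + 1)
      have e2 : ((N + 1 : ℕ) : ℚ) * (1 / (N + 1)) = 1 := by push_cast; field_simp
      have e3 : ((N + 1 : ℕ) : ℝ) * ((1 / (N + 1) : ℚ) : ℝ) = 1 := by push_cast; field_simp
      rw [e2, e3] at e1
      push_cast at e1
      have e4 := (abs_le.1 (mom_le h (Y 1) (p 1) v)).2
      have e5 := (abs_le.1 (mom_le h (Y 0) (p 0) v)).1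
      have e6 : (0 : ℝ) ≤ 1 / (N + 1) := by positivity
      have e7 := mul_le_mul_of_nonneg_left (show M 1 - M 0 ≤ 2 * ∑ i, R * ‖v i‖ by linarith) e6
      linarith
    refine ge_of_tendsto' (f := fun N : ℕ => D 0 + b + (1 / (N + 1)) * (2 * ∑ i, R * ‖v i‖))
      (x := atTop) ?_ h2
    simpa using (tendsto_one_div_add_atTop_nhds_zero_nat.mul_const
      (2 * ∑ i, R * ‖v i‖)).const_add (D 0 + b)
  have e0 : Y 0 = y := by funext i; simp [Y]
  have e1 : Y 1 = y + v := by funext i; simp [Y]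
  have a1 := J_min h (e1 ▸ hy 1 : Function.Injective (y + v)) h1 (p 1)
  have a2 := J_min h (hy 1) (hp' 1) ψ
  have a3 := J_min h (hy 0) (hp 0) ψ0
  have a4 := J_min h (e0 ▸ hy 0 : Function.Injective y) h0 (p' 0)
  change Jf K m' (Y 1) _ ≤ Jf K m' (Y 1) _ at a2
  change Jf K m (Y 0) _ ≤ Jf K m (Y 0) _ at a3
  simp only [D, e0, e1] at hD a2 a3
  linarith

theorem J_cvx (h : Body K R) (m : I → ℝ) (y : I → E d) (ψ ψ' : I → ℝ) {t : ℝ} (h0 : 0 ≤ t)
    (h1 : t ≤ 1) : Jf K m y (fun i => ψ i + t * (ψ' i - ψ i)) ≤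
      (1 - t) * Jf K m y ψ + t * Jf K m y ψ' := by
  have := integral_mono (μ := un K) (h.intg (pot_cont y fun i => ψ i + t * (ψ' i - ψ i)))
    (h.intg (f := fun x => (1 - t) * pot y ψ x + t * pot y ψ' x) (by fun_prop))
    fun x => pot_le fun i => by
      have e1 := mul_le_mul_of_nonneg_left (aff_le y ψ i x) (sub_nonneg.2 h1)
      have e2 := mul_le_mul_of_nonneg_left (aff_le y ψ' i x) h0
      simp only [aff] at e1 e2 ⊢
      linarith
  rw [integral_add (h.intg (by fun_prop)) (h.intg (by fun_prop)), integral_const_mul,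
    integral_const_mul] at this
  have e : ∑ i, m i * (ψ i + t * (ψ' i - ψ i)) = (1 - t) * ∑ i, m i * ψ i + t * ∑ i, m i * ψ' i := by
    simp only [Finset.mul_sum, ← Finset.sum_add_distrib]
    exact Finset.sum_congr rfl fun i _ => by ring
  simp only [Jf, e]
  linarith

theorem J_mass (K : Set (E d)) (m g : I → ℝ) (ε : ℝ) (y : I → E d) (ψ : I → ℝ) :
    Jf K (fun i => m i - ε * g i) y ψ = Jf K m y ψ - ε * ∑ i, g i * ψ i := by
  simp only [Jf, sub_mul, Finset.sum_sub_distrib, Finset.mul_sum, mul_assoc]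
  ring

theorem heights (h : Body K R) (hy : ∀ t : ℚ, Function.Injective fun i => y i + (t : ℝ) • v i)
    (m0 : ∀ i, 0 < m i) (hm : ∑ i, m i = 1) {ψ0 ψ1 : I → ℝ} (h0 : Opt K m y ψ0)
    (h1 : Opt K m (y + v) ψ1) :
    ∃ c, ∑ i, m i * (ψ1 i - ψ0 i - c) ^ 2 ≤ 1248000 * R ^ 2 * ∑ i, m i * ‖v i‖ ^ 2 := by
  have hy0 : Function.Injective y := by simpa using hy 0
  set c := ∑ i, m i * (ψ1 i - ψ0 i) with hc
  refine ⟨c, le_of_forall_pos_le_add fun η hη => ?_⟩
  let g : I → ℝ := fun i => m i * (ψ1 i - ψ0 i - c)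
  have hg : ∑ i, g i = 0 := by
    simp only [g, mul_sub _ _ c, Finset.sum_sub_distrib, ← Finset.sum_mul, hm, ← hc]; ring
  obtain ⟨γ, hγ, hn⟩ := near h hy0 m0 hm h0 hg (half_pos hη)
  obtain ⟨ε, ⟨hε1, hε2⟩, hε⟩ : ∃ ε : ℝ, (ε * (η / 2) < γ ∧ ∀ i, |ε * (ψ1 i - ψ0 i - c)| < 1 / 2) ∧
      0 < ε := by
    refine (Eventually.and (Eventually.filter_mono nhdsWithin_le_nhds ?_)
      (self_mem_nhdsWithin : ∀ᶠ ε in 𝓝[>] (0 : ℝ), 0 < ε)).exists
    refine Eventually.and ?_ (eventually_all.2 fun i => ?_) <;>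
      exact ContinuousAt.eventually_lt (by fun_prop) (by fun_prop) (by simp [hγ])
  have hm' : ∑ i, (m i - ε * g i) = 1 := by
    rw [Finset.sum_sub_distrib, ← Finset.mul_sum, hg, hm]; ring
  have hab1 : ∀ i, m i / 2 ≤ m i - ε * g i := fun i => by
    have := mul_lt_mul_of_pos_left (abs_lt.1 (hε2 i)).2 (m0 i)
    simp only [g]; linarith
  have hab2 : ∀ i, m i - ε * g i ≤ 3 * m i / 2 := fun i => by
    have := mul_lt_mul_of_pos_left (abs_lt.1 (hε2 i)).1 (m0 i)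
    simp only [g]; linarith
  obtain ⟨ψ', h'⟩ := exists_opt h hy0 (m := fun i => m i - ε * g i)
    (fun i => by linarith [hab1 i, m0 i]) hm'
  have e1 := chain (ψ := ψ1) (ψ0 := ψ') h hy m0 hm hm' hab1 hab2 h1 h' (s := 24 * ε) (by positivity)
  have e2 := J_min h hy0 h' ψ0
  simp only [J_mass] at e1 e2
  set H := ∑ i, m i * (ψ1 i - ψ0 i - c) ^ 2 with hH
  have e3 : ∑ i, (m i - ε * g i - m i) ^ 2 / m i = ε ^ 2 * H := by
    rw [hH, Finset.mul_sum]
    refine Finset.sum_congr rfl fun i _ => ?_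
    have := (m0 i).ne'
    simp only [g]; field_simp; ring
  have e4 : ∑ i, g i * ψ1 i - ∑ i, g i * ψ0 i = H := by
    have : H = ∑ i, (g i * ψ1 i - g i * ψ0 i - g i * c) :=
      Finset.sum_congr rfl fun i _ => by simp only [g]; ring
    rw [this, Finset.sum_sub_distrib, Finset.sum_sub_distrib, ← Finset.sum_mul, hg]; ring
  have e5 : ∑ i, g i * ψ' i - ∑ i, g i * ψ0 i < η / 2 := by
    by_contra e6
    set z := ∑ i, g i * ψ' i - ∑ i, g i * ψ0 i with hz
    have z0 : 0 < z := (half_pos hη).trans_le (not_lt.1 e6)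
    have t0 : 0 ≤ η / 2 / z := by positivity
    have e7 := J_cvx h m y ψ0 ψ' t0 ((div_le_one z0).2 (not_lt.1 e6))
    have e8 : η / 2 / z * z = η / 2 := div_mul_cancel₀ _ z0.ne'
    have e9 := mul_le_mul_of_nonneg_left
      (show Jf K m y ψ' - Jf K m y ψ0 ≤ ε * z by rw [hz]; linarith) t0
    have := hn _ (e7.trans_lt (by nlinarith))
    simp only [add_sub_cancel_left, mul_left_comm (g _), ← Finset.mul_sum, mul_sub,
      Finset.sum_sub_distrib] at this
    rw [← mul_sub, ← hz, e8] at this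
    exact lt_irrefl _ this
  have e6 : 12 * (ε ^ 2 * H) / (24 * ε) = ε * (H / 2) := by field_simp; ring
  rw [e3, e6] at e1
  have e7 : ε * (∑ i, g i * ψ1 i - ∑ i, g i * ψ' i) ≤
      ε * (H / 2 + 624000 * R ^ 2 * ∑ i, m i * ‖v i‖ ^ 2) := by linarith
  have := le_of_mul_le_mul_left e7 hε
  linarith

theorem pots (h : Body K R) (hy : ∀ t : ℚ, Function.Injective fun i => y i + (t : ℝ) • v i)
    (m0 : ∀ i, 0 < m i) (hm : ∑ i, m i = 1) {ψ0 ψ1 : I → ℝ} (h0 : Opt K m y ψ0)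
    (h1 : Opt K m (y + v) ψ1) :
    ∃ c, ∫ x, (pot (y + v) ψ1 x - pot y ψ0 x - c) ^ 2 ∂un K ≤
      5000000 * R ^ 2 * ∑ i, m i * ‖v i‖ ^ 2 := by
  have := h.prob
  have hy0 : Function.Injective y := by simpa using hy 0
  have hy1 : Function.Injective (y + v) := by simpa [Pi.add_def] using hy 1
  obtain ⟨c, hc⟩ := heights h hy m0 hm h0 h1
  let q : I → ℝ := fun i => 2 * R ^ 2 * ‖v i‖ ^ 2 + 2 * (ψ1 i - ψ0 i - c) ^ 2
  have hq : ∀ x ∈ K, ∀ i, (aff (y + v) ψ1 i x - aff y ψ0 i x - -c) ^ 2 ≤ q i := by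
    intro x hx i
    have e1 : |inner ℝ x (v i)| ≤ R * ‖v i‖ := (abs_real_inner_le_norm _ _).trans
      (mul_le_mul_of_nonneg_right (h.bd x hx) (norm_nonneg _))
    have e2 := pow_le_pow_left₀ (abs_nonneg _) e1 2
    rw [sq_abs] at e2
    simp only [aff, Pi.add_apply, inner_add_right, q]
    nlinarith [sq_nonneg (inner ℝ x (v i) + (ψ1 i - ψ0 i - c))]
  have key : ∀ (y' : I → E d) (ψ : I → ℝ) (f : E d → ℝ), Function.Injective y' → Opt K m y' ψ →
      Continuous f → (∀ i, ∀ x ∈ cell K y' ψ i, f x ≤ q i) → ∫ x, f x ∂un K ≤ ∑ i, m i * q i := by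
    intro y' ψ f hy' ho hf hfq
    rw [← sum_cells h hy' ψ (h.intg hf)]
    refine Finset.sum_le_sum fun i _ => ?_
    have := setIntegral_mono_on (h.intg hf).integrableOn (integrable_const (q i)).integrableOn
      (cell_meas h y' ψ i) (hfq i)
    simpa [ho i] using this
  let u : E d → ℝ := fun x => pot (y + v) ψ1 x - pot y ψ0 x - -c
  have q0 : ∀ i, 0 ≤ q i := fun i => by positivity
  have k1 := key y ψ0 (fun x => min (u x) 0 ^ 2) hy0 h0 (by fun_prop) fun i x hx => by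
    rcases le_total (u x) 0 with e | e
    · rw [min_eq_left e]
      refine le_trans ?_ (hq x hx.1 i)
      have := aff_le (y + v) ψ1 i x
      simp only [u, pot_eq hx] at e ⊢
      nlinarith
    · rw [min_eq_right e]; simpa using q0 i
  have k2 := key (y + v) ψ1 (fun x => max (u x) 0 ^ 2) hy1 h1 (by fun_prop) fun i x hx => by
    rcases le_total (u x) 0 with e | e
    · rw [max_eq_right e]; simpa using q0 i
    · rw [max_eq_left e]
      refine le_trans ?_ (hq x hx.1 i)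
      have := aff_le y ψ0 i x
      simp only [u, pot_eq hx] at e ⊢
      nlinarith
  have k3 : ∫ x, u x ^ 2 ∂un K = ∫ x, min (u x) 0 ^ 2 ∂un K + ∫ x, max (u x) 0 ^ 2 ∂un K := by
    rw [← integral_add (h.intg (by fun_prop)) (h.intg (by fun_prop))]
    refine integral_congr_ae (Eventually.of_forall fun x => ?_)
    rcases le_total (u x) 0 with e | e <;> simp [e]
  have k4 : ∑ i, m i * q i = 2 * R ^ 2 * ∑ i, m i * ‖v i‖ ^ 2 +
      2 * ∑ i, m i * (ψ1 i - ψ0 i - c) ^ 2 := by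
    simp only [Finset.mul_sum, ← Finset.sum_add_distrib, q]
    exact Finset.sum_congr rfl fun i _ => by ring
  have k5 : 0 ≤ R ^ 2 * ∑ i, m i * ‖v i‖ ^ 2 :=
    mul_nonneg (sq_nonneg _) (Finset.sum_nonneg fun i _ => mul_nonneg (m0 i).le (sq_nonneg _))
  exact ⟨-c, by change ∫ x, u x ^ 2 ∂un K ≤ _; linarith⟩

end Vale.Agent.P074
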