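import Vale.Agent.P074.Interp

/-!
Discretisation of couplings.
-/

namespace Vale.Agent.P074

open MeasureTheory Set Real Filter
open scoped ENNReal NNReal Topology

variable {d : ℕ} {K : Set (E d)} {R : ℝ}

theorem partition {Z : Type} [PseudoMetricSpace Z] [MeasurableSpace Z] [OpensMeasurableSpace Z]
    (κ : Measure Z) [IsProbabilityMeasure κ] {Y : Set Z} (hY : IsCompact Y)
    (hq : ∀ᵐ p ∂κ, p ∈ Y) {δ : ℝ} (hδ : 0 < δ) :
    ∃ (I : Type) (_ : Fintype I) (c : I → Z) (m : I → ℝ), (∀ i, c i ∈ Y) ∧ (∀ i, 0 < m i) ∧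
      ∑ i, m i = 1 ∧ ∀ (g : I → ℝ) (F : Z → ℝ), Integrable F κ →
        (∀ i p, dist p (c i) < δ → g i ≤ F p) → ∑ i, m i * g i ≤ ∫ p, F p ∂κ := by
  classical
  obtain ⟨t, htY, ht, hc⟩ := finite_cover_balls_of_compact hY hδ
  obtain ⟨n, c, -, rfl⟩ := ht.fin_param
  let Q := disjointed fun i => Metric.ball (c i) δ
  have hQ : ∀ i, MeasurableSet (Q i) := fun i =>
    disjointedRec (fun _ _ h => h.diff measurableSet_ball) measurableSet_ball
  have hs : ∀ F : Z → ℝ, Integrable F κ →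
      ∑ i : {i // 0 < κ.real (Q i)}, ∫ p in Q i, F p ∂κ = ∫ p, F p ∂κ := by
    intro F hF
    rw [← Finset.sum_subtype (Finset.univ.filter fun i => 0 < κ.real (Q i))
      (p := fun i => 0 < κ.real (Q i)) (by simp) fun i => ∫ p in Q i, F p ∂κ,
      Finset.sum_filter_of_ne, ← integral_iUnion_fintype hQ (disjoint_disjointed _)
        fun i => hF.integrableOn, Measure.restrict_eq_self_of_ae_mem]
    · filter_upwards [hq] with p hp
      rw [iUnion_disjointed]
      simpa using hc hp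
    · intro i _ hi
      refine lt_of_le_of_ne measureReal_nonneg fun e => hi ?_
      rw [Measure.restrict_eq_zero.2 ((measureReal_eq_zero_iff).1 e.symm), integral_zero_measure]
  refine ⟨{i // 0 < κ.real (Q i)}, inferInstance, fun i => c i, fun i => κ.real (Q i),
    fun i => htY (mem_range_self _), fun i => i.2, by simpa using hs _ (integrable_const 1),
    fun g F hF hg => ?_⟩
  rw [← hs F hF]
  refine Finset.sum_le_sum fun i _ => ?_
  simpa using setIntegral_mono_on (integrable_const (g i)).integrableOn hF.integrableOn (hQ i)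
    fun p hp => hg i p (disjointed_subset (fun i => Metric.ball (c i) δ) i hp)

theorem generic {I : Type} [Fintype I] (hd : 0 < d) (a v : I → E d) {δ : ℝ} (hδ : 0 < δ) :
    ∃ y : I → E d, (∀ i, ‖y i - a i‖ ≤ δ) ∧
      ∀ t : ℚ, Function.Injective fun i => y i + (t : ℝ) • v i := by
  let e : E d := EuclideanSpace.single ⟨0, hd⟩ 1
  let w : I → ℝ := fun i => (Fintype.equivFin I i : ℕ)
  have hw : Function.Injective w := fun i j h =>
    (Fintype.equivFin I).injective (Fin.ext (Nat.cast_injective h))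
  let B : Set ℝ := range fun q : ℚ × I × I =>
    ((a q.2.2 + (q.1 : ℝ) • v q.2.2) ⟨0, hd⟩ - (a q.2.1 + (q.1 : ℝ) • v q.2.1) ⟨0, hd⟩) /
      (w q.2.1 - w q.2.2)
  have hN : (0 : ℝ) < Fintype.card I + 1 := by positivity
  obtain ⟨η, hη, h0, h1⟩ := ((countable_range _ : B.Countable).dense_compl ℝ).exists_between
    (div_pos hδ hN)
  refine ⟨fun i => a i + (η * w i) • e, fun i => ?_, fun t i j hij => ?_⟩
  · have : w i ≤ Fintype.card I + 1 := by
      have := (Fintype.equivFin I i).2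
      simp only [w]; exact_mod_cast by omega
    have w0 : 0 ≤ w i := Nat.cast_nonneg _
    rw [lt_div_iff₀ hN] at h1
    simp only [add_sub_cancel_left, norm_smul, e, PiLp.norm_single, norm_one, mul_one,
      Real.norm_eq_abs, abs_of_nonneg (mul_nonneg h0.le w0)]
    nlinarith
  · by_contra hne
    refine hη ⟨(t, i, j), ?_⟩
    have := congrArg (fun z : E d => z ⟨0, hd⟩) hij
    have hw' := sub_ne_zero.2 (hw.ne hne)
    simp only [e, PiLp.add_apply, PiLp.smul_apply, PiLp.single_eq_same, smul_eq_mul] at this ⊢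
    field_simp
    linarith

/-- `S` pushes the uniform measure to a measure close to `μ` -/
def Near (K : Set (E d)) (μ : Measure (E d)) (δ : ℝ) (S : E d → E d) : Prop :=
  ∀ (f : E d → ℝ) (k : ℝ≥0), LipschitzWith k f →
    |∫ x, f (S x) ∂un K - ∫ z, f z ∂μ| ≤ k * δ

theorem semi (h : Body K R) {I : Type} [Fintype I] [Nonempty I] {y : I → E d} {m ψ : I → ℝ}
    (hy : Function.Injective y) (ho : Opt K m y ψ) {L : ℝ} (hL : ∀ i, ‖y i‖ ≤ L) :
    ∃ T, Sub K L (pot y ψ) T 0 ∧ ∀ f : E d → ℝ, ∫ x, f (T x) ∂un K = ∑ i, m i * f (y i) := by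
  have := h.prob
  let T : E d → E d := fun x => ∑ i, (cell K y ψ i).indicator (fun _ => y i) x
  have key : ∀ {F : Type} [AddCommMonoid F] (g : I → F) (i : I), ∀ x ∈ cell K y ψ i,
      ∑ j, (cell K y ψ j).indicator (fun _ => g j) x = g i := by
    intro F _ g i x hx
    rw [Finset.sum_eq_single i (fun j _ hj => indicator_of_notMem
      (disjoint_left.1 (cell_disj K y ψ hj.symm) hx) _) (by simp), indicator_of_mem hx]
  have lip : ∀ x w, pot y ψ (x + w) ≤ pot y ψ x + L * ‖w‖ := fun x w => pot_le fun i => by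
    have h1 := aff_le y ψ i x
    have h2 := (real_inner_le_norm w (y i)).trans
      (mul_le_mul_of_nonneg_left (hL i) (norm_nonneg w))
    simp only [aff, inner_add_left] at h1 ⊢
    linarith
  refine ⟨T, ⟨pot_cont y ψ, fun x w => abs_le.2 ⟨?_, by linarith [lip x w]⟩,
    (Finset.measurable_sum _ fun i _ => measurable_const.indicator
      (cell_meas h y ψ i)).aestronglyMeasurable, ?_, integrable_zero _ _ _, ?_⟩, fun f => ?_⟩
  · have := lip (x + w) (-w)
    rw [add_neg_cancel_right, norm_neg] at this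
    linarith
  · filter_upwards [ae_cell h hy ψ] with x ⟨i, hi⟩
    simp only [T, key y i x hi, hL i]
  · filter_upwards [ae_cell h hy ψ] with x ⟨i, hi⟩ x' _
    have := aff_le y ψ i x'
    simp only [T, key y i x hi, pot_eq hi, aff, inner_sub_left, Pi.zero_apply] at this ⊢
    linarith
  · rw [integral_congr_ae (g := fun x => ∑ i, (cell K y ψ i).indicator (fun _ => f (y i)) x) (by
      filter_upwards [ae_cell h hy ψ] with x ⟨i, hi⟩
      simp only [T, key y i x hi, key (fun j => f (y j)) i x hi]),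
      integral_finsetSum _ fun i _ => (integrable_const _).indicator (cell_meas h y ψ i)]
    exact Finset.sum_congr rfl fun i _ => by
      rw [integral_indicator_const _ (cell_meas h y ψ i), ho i, smul_eq_mul]

theorem int_cpt {Z : Type} [MetricSpace Z] [MeasurableSpace Z] [BorelSpace Z] {κ : Measure Z}
    [IsFiniteMeasure κ] {Y : Set Z} (hY : IsCompact Y) (hq : ∀ᵐ p ∂κ, p ∈ Y) {F : Z → ℝ}
    (hF : Continuous F) : Integrable F κ := by
  rw [← Measure.restrict_eq_self_of_ae_mem hq]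
  exact hF.continuousOn.integrableOn_compact hY

theorem exists_pair (h : Body K R) (hd : 0 < d) {Y : Set (E d)} (hY : IsCompact Y) {L : ℝ}
    (hL : ∀ z ∈ Y, ‖z‖ + 1 ≤ L) (κ : Measure (E d × E d)) [IsProbabilityMeasure κ]
    (hq : ∀ᵐ p ∂κ, p ∈ Y ×ˢ Y) {δ : ℝ} (h0 : 0 < δ) (h1 : δ ≤ 1) :
    ∃ φ0 φ1 T0 T1 c, Sub K L φ0 T0 0 ∧ Sub K L φ1 T1 0 ∧ Near K (κ.map Prod.fst) δ T0 ∧
      Near K (κ.map Prod.snd) δ T1 ∧ ∫ x, (φ1 x - φ0 x - c) ^ 2 ∂un K ≤
        10000000 * R ^ 2 * (∫ p, ‖p.1 - p.2‖ ^ 2 ∂κ + δ ^ 2) := by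
  obtain ⟨I, _, c, m, hc, m0, hm, hg⟩ := partition κ (hY.prod hY) hq (half_pos h0)
  have : Nonempty I := by
    by_contra hI
    rw [not_nonempty_iff] at hI
    simp at hm
  obtain ⟨y, hy1, hy⟩ := generic hd (fun i => (c i).1) (fun i => (c i).2 - (c i).1) (half_pos h0)
  set v : I → E d := fun i => (c i).2 - (c i).1 with hv
  have hy0 : Function.Injective y := by simpa using hy 0
  have hy' : Function.Injective (y + v) := by simpa [Pi.add_def] using hy 1
  have hy2 : ∀ i, ‖(y + v) i - (c i).2‖ ≤ δ / 2 := fun i => by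
    convert hy1 i using 2
    simp only [hv, Pi.add_apply]; abel
  obtain ⟨ψ0, o0⟩ := exists_opt h hy0 m0 hm
  obtain ⟨ψ1, o1⟩ := exists_opt h hy' m0 hm
  have key : ∀ (y' : I → E d) (ψ : I → ℝ) (P : E d × E d → E d), LipschitzWith 1 P →
      (∀ p ∈ Y ×ˢ Y, P p ∈ Y) → Function.Injective y' → Opt K m y' ψ →
      (∀ i, ‖y' i - P (c i)‖ ≤ δ / 2) → ∃ T, Sub K L (pot y' ψ) T 0 ∧ Near K (κ.map P) δ T := by
    intro y' ψ P hP hPY hy' ho hd
    obtain ⟨T, hT, hT'⟩ := semi h hy' ho (L := L) fun i => by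
      have := hL _ (hPY _ (hc i))
      have := norm_le_norm_add_norm_sub' (y' i) (P (c i))
      linarith [hd i]
    refine ⟨T, hT, fun f k hf => ?_⟩
    have hP' := hP.continuous
    have hf' := hf.continuous
    have hi : Integrable (fun p => f (P p)) κ := int_cpt (hY.prod hY) hq (by fun_prop)
    rw [hT', integral_map hP'.aemeasurable hf'.aestronglyMeasurable]
    have hb : ∀ i p, dist p (c i) < δ / 2 → |f (y' i) - f (P p)| ≤ k * δ := fun i p hp => by
      refine (hf.dist_le_mul _ _).trans (mul_le_mul_of_nonneg_left ?_ k.2)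
      have e1 := dist_triangle (y' i) (P (c i)) (P p)
      have e2 := hP.dist_le_mul (c i) p
      have e3 := hd i
      rw [← dist_eq_norm] at e3
      rw [dist_comm] at hp
      simp only [NNReal.coe_one, one_mul] at e2
      linarith
    have e1 := hg (fun i => f (y' i) - k * δ) _ hi fun i p hp => by
      linarith [(abs_le.1 (hb i p hp)).2]
    have e2 := hg (fun i => -f (y' i) - k * δ) _ hi.neg fun i p hp => by
      simp only [Pi.neg_apply]
      linarith [(abs_le.1 (hb i p hp)).1]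
    simp only [mul_sub, Finset.sum_sub_distrib, ← Finset.sum_mul, hm, mul_neg,
      Finset.sum_neg_distrib, Pi.neg_apply, integral_neg] at e1 e2
    exact abs_le.2 ⟨by linarith, by linarith⟩
  obtain ⟨T0, a0, b0⟩ := key y ψ0 _ LipschitzWith.prod_fst (fun p hp => hp.1) hy0 o0 hy1
  obtain ⟨T1, a1, b1⟩ := key (y + v) ψ1 _ LipschitzWith.prod_snd (fun p hp => hp.2) hy' o1 hy2
  obtain ⟨c', hc'⟩ := pots h hy m0 hm o0 o1
  refine ⟨_, _, T0, T1, c', a0, a1, b0, b1, hc'.trans ?_⟩
  have e1 := hg (fun i => ‖v i‖ ^ 2 / 2 - δ ^ 2) (fun p => ‖p.1 - p.2‖ ^ 2)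
    (int_cpt (hY.prod hY) hq (by fun_prop)) fun i p hp => by
      rw [Prod.dist_eq, max_lt_iff, dist_eq_norm, dist_eq_norm] at hp
      have e2 : ‖v i‖ ≤ ‖p.1 - p.2‖ + δ := by
        have : v i = (p.1 - (c i).1) - (p.1 - p.2) - (p.2 - (c i).2) := by simp only [hv]; abel
        rw [this]
        have := norm_sub_le ((p.1 - (c i).1) - (p.1 - p.2)) (p.2 - (c i).2)
        have := norm_sub_le (p.1 - (c i).1) (p.1 - p.2)
        linarith [hp.1, hp.2]
      have := pow_le_pow_left₀ (norm_nonneg _) e2 2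
      nlinarith [sq_nonneg (‖p.1 - p.2‖ - δ)]
  simp only [mul_sub, Finset.sum_sub_distrib, ← Finset.sum_mul, hm, ← mul_div_assoc,
    ← Finset.sum_div] at e1
  nlinarith [sq_nonneg R]

end Vale.Agent.P074
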