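import Vale.Agent.P074.Chain

/-!
From potentials to approximate subgradients.
-/

namespace Vale.Agent.P074

open MeasureTheory Set Real Filter
open scoped ENNReal Topology

variable {d : ℕ} {K : Set (E d)} {R : ℝ}

/-- points that stay in `K` when moved by `w` or `-w` -/
def good (K : Set (E d)) (w : E d) : Set (E d) := {x | x ∈ K ∧ x + w ∈ K ∧ x - w ∈ K}

theorem good_meas (h : Body K R) (w : E d) : MeasurableSet (good K w) :=
  h.cpt.measurableSet.inter ((measurable_add_const w h.cpt.measurableSet).inter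
    (measurable_sub_const w h.cpt.measurableSet))

theorem good_big (h : Body K R) : ∃ r > 0, ∀ τ, 0 < τ → τ ≤ r → ∀ w : E d, ‖w‖ ≤ τ →
    1 - d * (τ / r) ≤ (un K).real (good K w) := by
  obtain ⟨x0, hx0⟩ := h.int
  obtain ⟨r, hr, hb⟩ := Metric.nhds_basis_closedBall.mem_iff.1 (mem_interior_iff_mem_nhds.1 hx0)
  refine ⟨r, hr, fun τ h0 h1 w hw => ?_⟩
  have l0 : 0 < τ / r := by positivity
  have l1 : τ / r ≤ 1 := (div_le_one hr).2 h1
  have key : ∀ w : E d, ‖w‖ ≤ τ → ∀ k ∈ K, AffineMap.homothety x0 (1 - τ / r) k + w ∈ K := by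
    intro w hw k hk
    have h2 : x0 + (τ / r)⁻¹ • w ∈ K := hb (by
      rw [mem_closedBall_iff_norm, add_sub_cancel_left, norm_smul, norm_inv, Real.norm_eq_abs,
        abs_of_pos l0, inv_mul_le_iff₀ l0, div_mul_cancel₀ _ hr.ne']
      exact hw)
    have := h.cvx hk h2 (sub_nonneg.2 l1) l0.le (by ring)
    convert this using 1
    rw [AffineMap.homothety_apply, smul_add, smul_inv_smul₀ l0.ne', vsub_eq_sub, vadd_eq_add]
    module
  have hs : AffineMap.homothety x0 (1 - τ / r) '' K ⊆ good K w := by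
    rintro _ ⟨k, hk, rfl⟩
    exact ⟨by simpa using key 0 (by simpa using h0.le) k hk, key w hw k hk,
      by simpa [sub_eq_add_neg] using key (-w) (by simpa using hw) k hk⟩
  have h3 := measure_mono (μ := volume) hs
  rw [Measure.addHaar_image_homothety, finrank_euclideanSpace_fin,
    abs_of_nonneg (pow_nonneg (sub_nonneg.2 l1) _)] at h3
  have h4 : ENNReal.ofReal ((1 - τ / r) ^ d) ≤ un K (good K w) := by
    rw [un, Measure.smul_apply, Measure.restrict_apply (good_meas h w),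
      inter_eq_left.2 fun x hx => hx.1, smul_eq_mul]
    refine le_trans (le_of_eq ?_) (mul_le_mul_right h3 _)
    rw [mul_left_comm, ENNReal.inv_mul_cancel h.vol h.cpt.measure_lt_top.ne, mul_one]
  have := h.prob
  rw [ENNReal.ofReal_le_iff_le_toReal (measure_ne_top _ _)] at h4
  refine le_trans ?_ h4
  have := one_add_mul_le_pow (show (-2 : ℝ) ≤ -(τ / r) by linarith) d
  simpa [sub_eq_add_neg] using this

theorem shift {G : Set (E d)} (hG : MeasurableSet G) (hGK : G ⊆ K) (w : E d)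
    (hw : (· + w) ⁻¹' G ⊆ K) (f : E d → ℝ) :
    ∫ x in (· + w) ⁻¹' G, f (x + w) ∂un K = ∫ x in G, f x ∂un K := by
  rw [setIntegral_un (measurable_add_const w hG) hw, setIntegral_un hG hGK,
    (measurePreserving_add_right volume w).setIntegral_preimage_emb
      (measurableEmbedding_addRight w)]

theorem second_diff (h : Body K R) {φ : E d → ℝ} (hφ : Continuous φ) {w : E d} {B : ℝ}
    (hB : ∀ x, |φ (x + w) - φ x| ≤ B) :
    ∫ x in good K w, (φ (x + w) + φ (x - w) - 2 * φ x) ∂un K ≤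
      2 * B * (1 - (un K).real (good K w)) := by
  have := h.prob
  have hG := good_meas h w
  have hG' := measurable_add_const w hG
  have hw : (· + w) ⁻¹' good K w ⊆ K := fun x hx => by simpa using hx.2.2
  have e1 := shift hG (fun x hx => hx.1) w hw fun x => φ x - φ (x - w)
  have e2 := shift hG (fun x hx => hx.1) w hw fun _ => 1
  simp only [add_sub_cancel_right, integral_const, MeasurableSet.univ, measureReal_restrict_apply,
    univ_inter, smul_eq_mul, mul_one] at e1 e2
  have hD : Integrable (fun x => φ (x + w) - φ x) (un K) := h.intg (by fun_prop)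
  have e3 : ∀ S, MeasurableSet S → |∫ x, φ (x + w) - φ x ∂un K - ∫ x in S, φ (x + w) - φ x ∂un K| ≤
      B * (1 - (un K).real S) := by
    intro S hS
    rw [← integral_add_compl hS hD, add_sub_cancel_left, ← probReal_compl_eq_one_sub hS,
      ← Real.norm_eq_abs]
    exact norm_setIntegral_le_of_norm_le_const (measure_lt_top _ _) fun x _ => hB x
  have e4 := (abs_le.1 (e3 _ hG)).1
  have e5 := (abs_le.1 (e3 _ hG')).2
  have e6 : ∫ x in good K w, (φ (x + w) + φ (x - w) - 2 * φ x) ∂un K =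
      ∫ x in good K w, φ (x + w) - φ x ∂un K - ∫ x in good K w, φ x - φ (x - w) ∂un K := by
    rw [← integral_sub hD.integrableOn (h.intg (by fun_prop)).integrableOn]
    exact integral_congr_ae (Eventually.of_forall fun x => by ring)
  rw [e2] at e5
  linarith

/-- `S` is an approximate subgradient of `φ` with error `η` -/
structure Sub (K : Set (E d)) (L : ℝ) (φ : E d → ℝ) (S : E d → E d) (η : E d → ℝ) : Prop where
  cont : Continuous φ
  lip : ∀ x w, |φ (x + w) - φ x| ≤ L * ‖w‖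
  meas : AEStronglyMeasurable S (un K)
  bd : ∀ᵐ x ∂un K, ‖S x‖ ≤ L
  int : Integrable η (un K)
  sub : ∀ᵐ x ∂un K, ∀ x' ∈ K, φ x + inner ℝ (x' - x) (S x) - η x ≤ φ x'

theorem Sub.nonneg (h : Body K R) {L : ℝ} {φ η : E d → ℝ} {S : E d → E d} (h0 : Sub K L φ S η) :
    ∀ᵐ x ∂un K, 0 ≤ η x := by
  filter_upwards [h0.sub, h.mem] with x hx hK
  simpa using hx x hK

theorem interp1 (h : Body K R) {L : ℝ} (hL : 0 ≤ L) {φ0 φ1 η0 η1 : E d → ℝ} {S0 S1 : E d → E d}
    (h0 : Sub K L φ0 S0 η0) (h1 : Sub K L φ1 S1 η1) (c : ℝ) {τ : ℝ} (hτ : 0 < τ) {e : E d}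
    (he : ‖e‖ = 1) :
    ∫ x, inner ℝ e (S1 x - S0 x) ^ 2 ∂un K ≤ 4 * (∫ x, (φ1 x - φ0 x - c) ^ 2 ∂un K) / τ ^ 2 +
      20 * L ^ 2 * (1 - (un K).real (good K (τ • e))) +
      12 * L * (∫ x, η0 x ∂un K + ∫ x, η1 x ∂un K) / τ := by
  have := h.prob
  have c0 := h0.cont
  have c1 := h1.cont
  set w := τ • e with hw
  have hwn : ‖w‖ = τ := by rw [hw, norm_smul, he, mul_one, Real.norm_eq_abs, abs_of_pos hτ]
  have hG := good_meas h w
  have zb : ∀ᵐ x ∂un K, |inner ℝ e (S1 x - S0 x)| ≤ 2 * L := by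
    filter_upwards [h0.bd, h1.bd] with x a0 a1
    refine (abs_real_inner_le_norm _ _).trans ?_
    rw [he, one_mul]
    linarith [norm_sub_le (S1 x) (S0 x)]
  have zb2 : ∀ᵐ x ∂un K, ‖inner ℝ e (S1 x - S0 x) ^ 2‖ ≤ 4 * L ^ 2 := by
    filter_upwards [zb] with x hx
    rw [Real.norm_eq_abs, abs_pow]
    exact (pow_le_pow_left₀ (abs_nonneg _) hx 2).trans (le_of_eq (by ring))
  have zi : Integrable (fun x => inner ℝ e (S1 x - S0 x) ^ 2) (un K) :=
    (integrable_const _).mono' ((aestronglyMeasurable_const.inner (h1.meas.sub h0.meas)).pow 2) zb2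
  let u : E d → ℝ := fun x => φ1 x - φ0 x - c
  have hu : Continuous u := by fun_prop
  let σ0 : E d → ℝ := fun x => φ0 (x + w) + φ0 (x - w) - 2 * φ0 x
  let σ1 : E d → ℝ := fun x => φ1 (x + w) + φ1 (x - w) - 2 * φ1 x
  have i1 : Integrable (fun x => u (x + w) ^ 2) (un K) := h.intg (by fun_prop)
  have i2 : Integrable (fun x => u x ^ 2) (un K) := h.intg (by fun_prop)
  have i3 : Integrable σ0 (un K) := h.intg (by fun_prop)
  have i4 : Integrable σ1 (un K) := h.intg (by fun_prop)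
  have pt : ∀ᵐ x ∂un K, x ∈ good K w → inner ℝ e (S1 x - S0 x) ^ 2 ≤
      2 / τ ^ 2 * (u (x + w) ^ 2 + u x ^ 2) + 4 * L / τ * (σ0 x + σ1 x + 3 * (η0 x + η1 x)) := by
    filter_upwards [zb, h0.sub, h1.sub, h0.nonneg h, h1.nonneg h] with x hz s0 s1 n0 n1 hx
    have a0 := s0 _ hx.2.1
    have a1 := s1 _ hx.2.1
    have b0 := s0 _ hx.2.2
    have b1 := s1 _ hx.2.2
    simp only [add_sub_cancel_left, sub_sub_cancel_left, inner_neg_left] at a0 a1 b0 b1
    have e1 : inner ℝ w (S1 x) - inner ℝ w (S0 x) = τ * inner ℝ e (S1 x - S0 x) := by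
      rw [← inner_sub_right, hw, real_inner_smul_left]
    have e2 : τ * |inner ℝ e (S1 x - S0 x)| ≤
        |u (x + w) - u x| + (σ0 x + σ1 x + 3 * (η0 x + η1 x)) := by
      rw [← abs_of_pos hτ, ← abs_mul, ← e1]
      have := le_abs_self (u (x + w) - u x)
      have := neg_abs_le (u (x + w) - u x)
      simp only [u, σ0, σ1] at *
      exact abs_le.2 ⟨by linarith, by linarith⟩
    have e3 : 0 ≤ σ0 x + σ1 x + 3 * (η0 x + η1 x) := by simp only [σ0, σ1]; linarith
    have e4 : |u (x + w) - u x| ^ 2 ≤ 2 * (u (x + w) ^ 2 + u x ^ 2) := by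
      rw [sq_abs]; nlinarith [sq_nonneg (u (x + w) + u x)]
    rw [← sq_abs]
    have e5 := abs_nonneg (inner ℝ e (S1 x - S0 x))
    generalize |inner ℝ e (S1 x - S0 x)| = z at *
    generalize σ0 x + σ1 x + 3 * (η0 x + η1 x) = P at *
    generalize |u (x + w) - u x| = a at *
    generalize u (x + w) ^ 2 + u x ^ 2 = U at *
    have e6 : 2 / τ ^ 2 * U + 4 * L / τ * P = (2 * U + 4 * L * τ * P) / τ ^ 2 := by
      field_simp
    rw [e6, le_div_iff₀ (by positivity)]
    have e7 := mul_le_mul_of_nonneg_left e2 (mul_nonneg hτ.le e5)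
    have e8 := mul_le_mul_of_nonneg_right hz (mul_nonneg hτ.le e3)
    nlinarith [sq_nonneg (τ * z - a)]
  have j1 := setIntegral_mono_on_ae zi.integrableOn ((((i1.add i2).const_mul (2 / τ ^ 2)).add
    (((i3.add i4).add ((h0.int.add h1.int).const_mul 3)).const_mul (4 * L / τ))).integrableOn) hG pt
  rw [integral_add' ((i1.add i2).const_mul _).integrableOn
    (((i3.add i4).add ((h0.int.add h1.int).const_mul 3)).const_mul _).integrableOn,
    integral_const_mul, integral_const_mul, integral_add' i1.integrableOn i2.integrableOn,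
    integral_add' (i3.add i4).integrableOn ((h0.int.add h1.int).const_mul 3).integrableOn,
    integral_add' i3.integrableOn i4.integrableOn, integral_const_mul,
    integral_add' h0.int.integrableOn h1.int.integrableOn] at j1
  have j2 : ∫ x in (good K w)ᶜ, inner ℝ e (S1 x - S0 x) ^ 2 ∂un K ≤
      4 * L ^ 2 * (1 - (un K).real (good K w)) := by
    rw [← probReal_compl_eq_one_sub hG]
    exact (le_abs_self _).trans (norm_setIntegral_le_of_norm_le_const_ae (measure_lt_top _ _)
      (ae_restrict_of_ae zb2))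
  have j3 : ∫ x in good K w, u (x + w) ^ 2 ∂un K ≤ ∫ x, u x ^ 2 ∂un K := by
    rw [← shift hG (fun x hx => hx.1) (-w) (fun x hx => by simpa using hx.2.1)
      fun x => u (x + w) ^ 2]
    simp only [neg_add_cancel_right]
    exact setIntegral_le_integral i2 (Eventually.of_forall fun x => sq_nonneg _)
  have j4 : ∫ x in good K w, u x ^ 2 ∂un K ≤ ∫ x, u x ^ 2 ∂un K :=
    setIntegral_le_integral i2 (Eventually.of_forall fun x => sq_nonneg _)
  have j5 := second_diff h c0 (B := L * τ) fun x => hwn ▸ h0.lip x w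
  have j6 := second_diff h c1 (B := L * τ) fun x => hwn ▸ h1.lip x w
  have j7 := setIntegral_le_integral (s := good K w) h0.int (h0.nonneg h)
  have j8 := setIntegral_le_integral (s := good K w) h1.int (h1.nonneg h)
  rw [← integral_add_compl hG zi]
  have j9 := mul_le_mul_of_nonneg_left (add_le_add j3 j4) (show 0 ≤ 2 / τ ^ 2 by positivity)
  have j10 := mul_le_mul_of_nonneg_left (add_le_add (add_le_add j5 j6)
    (mul_le_mul_of_nonneg_left (add_le_add j7 j8) (show (0 : ℝ) ≤ 3 by norm_num)))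
    (show 0 ≤ 4 * L / τ by positivity)
  refine (add_le_add (j1.trans (add_le_add j9 j10)) j2).trans (le_of_eq ?_)
  simp only [u]
  field_simp
  ring

theorem interp (h : Body K R) : ∃ r > 0, ∀ {L : ℝ}, 0 ≤ L → ∀ {φ0 φ1 η0 η1 : E d → ℝ}
    {S0 S1 : E d → E d}, Sub K L φ0 S0 η0 → Sub K L φ1 S1 η1 → ∀ c τ : ℝ, 0 < τ → τ ≤ r →
    ∫ x, ‖S1 x - S0 x‖ ^ 2 ∂un K ≤ d * (4 * (∫ x, (φ1 x - φ0 x - c) ^ 2 ∂un K) / τ ^ 2 +
      20 * L ^ 2 * (d * (τ / r)) + 12 * L * (∫ x, η0 x ∂un K + ∫ x, η1 x ∂un K) / τ) := by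
  have := h.prob
  obtain ⟨r, hr, hg⟩ := good_big h
  refine ⟨r, hr, fun {L} hL φ0 φ1 η0 η1 S0 S1 h0 h1 c τ hτ hτr => ?_⟩
  have e : ∀ z : E d, ‖z‖ ^ 2 = ∑ k, inner ℝ (EuclideanSpace.single k (1 : ℝ)) z ^ 2 := fun z => by
    simp [EuclideanSpace.real_norm_sq_eq, EuclideanSpace.inner_single_left]
  simp only [e]
  rw [integral_finsetSum]
  · refine (Finset.sum_le_card_nsmul _ _ _ fun k _ => ?_).trans (le_of_eq
      (by rw [Finset.card_univ, Fintype.card_fin, nsmul_eq_mul]))
    refine (interp1 h hL h0 h1 c hτ (by simp)).trans ?_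
    have := hg τ hτ hτr (τ • EuclideanSpace.single k (1 : ℝ)) (by simp [norm_smul, abs_of_pos hτ])
    gcongr
    linarith
  · intro k _
    refine (integrable_const (4 * L ^ 2)).mono'
      ((aestronglyMeasurable_const.inner (h1.meas.sub h0.meas)).pow 2) ?_
    filter_upwards [h0.bd, h1.bd] with x a0 a1
    rw [Real.norm_eq_abs, abs_pow]
    refine (pow_le_pow_left₀ (abs_nonneg _) ((abs_real_inner_le_norm _ _).trans
      (?_ : _ ≤ 2 * L)) 2).trans (le_of_eq (by ring))
    simp only [PiLp.norm_single, norm_one, one_mul]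
    linarith [norm_sub_le (S1 x) (S0 x)]

end Vale.Agent.P074
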