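import Vale.Agent.P074.Brenier

/-!
The stability estimate with exponent one third and its optimality.
-/

namespace Vale.Agent.P074

open MeasureTheory Set Real Filter
open scoped ENNReal NNReal Topology

variable {d : ℕ} {K : Set (E d)} {R L : ℝ}

theorem cost_eq (h : Body K R) {μ : Measure (E d)} {S : E d → E d} (hS : Measurable S)
    (e : (un K).map S = μ) (hb : ∀ᵐ x ∂un K, ‖S x‖ ≤ L) :
    ∫ x, ‖x - S x‖ ^ 2 ∂un K = ∫ x, ‖x‖ ^ 2 ∂un K - 2 * cor K S + ∫ z, ‖z‖ ^ 2 ∂μ := by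
  have i1 : Integrable (fun x => inner ℝ x (S x)) (un K) :=
    int_bd h hS.aestronglyMeasurable hb (F := fun p => inner ℝ p.1 p.2) (by fun_prop)
  have i2 : Integrable (fun x => ‖S x‖ ^ 2) (un K) :=
    int_bd h hS.aestronglyMeasurable hb (F := fun p => ‖p.2‖ ^ 2) (by fun_prop)
  have i3 : Integrable (fun x : E d => ‖x‖ ^ 2) (un K) := h.intg (by fun_prop)
  simp only [norm_sub_sq_real]
  rw [integral_add (f := fun x => ‖x‖ ^ 2 - 2 * inner ℝ x (S x)) (i3.sub (i1.const_mul 2)) i2,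
    integral_sub i3 (i1.const_mul 2),
    integral_const_mul, ← e, integral_map hS.aemeasurable (by fun_prop), cor]

theorem bd_map {Y : Set (E d)} (hL : ∀ z ∈ Y, ‖z‖ + 1 ≤ L) {μ : Measure (E d)}
    (hμ : ∀ᵐ z ∂μ, z ∈ Y) {S : E d → E d} (hS : Measurable S) (e : (un K).map S = μ) :
    ∀ᵐ x ∂un K, ‖S x‖ ≤ L := by
  filter_upwards [ae_of_ae_map hS.aemeasurable (e ▸ hμ)] with x hx
  linarith [hL _ hx]

/-- optimal maps -/
def OptMap (K : Set (E d)) (μ : Measure (E d)) (T : E d → E d) : Prop :=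
  Measurable T ∧ (un K).map T = μ ∧ ∀ S : E d → E d, Measurable S → (un K).map S = μ →
    ∫ x, ‖x - T x‖ ^ 2 ∂un K ≤ ∫ x, ‖x - S x‖ ^ 2 ∂un K

theorem exists_optMap (h : Body K R) (hd : 0 < d) {Y : Set (E d)} (hY : IsCompact Y)
    (μ : Measure (E d)) [IsProbabilityMeasure μ] (hμ : ∀ᵐ z ∂μ, z ∈ Y) : ∃ T, OptMap K μ T := by
  obtain ⟨L, L0, hL⟩ := hY.isBounded.exists_pos_norm_le
  have hL' : ∀ z ∈ Y, ‖z‖ + 1 ≤ L + 1 := fun z hz => by linarith [hL z hz]
  obtain ⟨T0, m0, e0, h0⟩ := exists_map h hd hY (by positivity) hL' μ hμ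
  refine ⟨T0, m0, e0, fun S hS e => ?_⟩
  have := h0 0 S (near_map hS e) hS.aestronglyMeasurable (bd_map hL' hμ hS e)
  rw [cost_eq h hS e (bd_map hL' hμ hS e), cost_eq h m0 e0 (bd_map hL' hμ m0 e0)]
  linarith

theorem sub_opt (h : Body K R) (hd : 0 < d) {Y : Set (E d)} (hY : IsCompact Y) (L0 : 0 ≤ L)
    (hL : ∀ z ∈ Y, ‖z‖ + 1 ≤ L) {μ : Measure (E d)} [IsProbabilityMeasure μ]
    (hμ : ∀ᵐ z ∂μ, z ∈ Y) {T : E d → E d} (hT : OptMap K μ T) {φ : E d → ℝ} {T' : E d → E d}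
    {δ : ℝ} (h1 : Sub K L φ T' 0) (h2 : Near K μ δ T') :
    ∃ η, Sub K L φ T η ∧ ∫ x, η x ∂un K ≤ 2 * R * δ := by
  obtain ⟨T0, m0, e0, h0⟩ := exists_map h hd hY L0 hL μ hμ
  have b := bd_map hL hμ hT.1 hT.2.1
  obtain ⟨η, a1, a2⟩ := sub_of_near h h1 h2 (near_map hT.1 hT.2.1) hT.1.aestronglyMeasurable b
  have a3 := h0 δ T' h2 h1.meas h1.bd
  have a4 := hT.2.2 T0 m0 e0
  rw [cost_eq h hT.1 hT.2.1 b, cost_eq h m0 e0 (bd_map hL hμ m0 e0)] at a4
  exact ⟨η, a1, by linarith⟩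

theorem upper (h : Body K R) (hd : 0 < d) {Y : Set (E d)} (hY : IsCompact Y) :
    ∃ C > 0, ∀ (μ ν : Measure (E d)) [IsProbabilityMeasure μ] [IsProbabilityMeasure ν],
      (∀ᵐ z ∂μ, z ∈ Y) → (∀ᵐ z ∂ν, z ∈ Y) → ∀ T S, OptMap K μ T → OptMap K ν S →
      ∀ κ : Measure (E d × E d), κ.map Prod.fst = μ → κ.map Prod.snd = ν →
        √(∫ x, ‖T x - S x‖ ^ 2 ∂un K) ≤ C * √(∫ p, ‖p.1 - p.2‖ ^ 2 ∂κ) ^ (1 / 3 : ℝ) := by
  have := h.prob
  have R0 := h.pos
  obtain ⟨L, L0, hL⟩ : ∃ L, 0 < L ∧ ∀ z ∈ Y, ‖z‖ + 1 ≤ L := by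
    obtain ⟨L, L0, hL⟩ := hY.isBounded.exists_pos_norm_le
    exact ⟨L + 1, by positivity, fun z hz => by linarith [hL z hz]⟩
  obtain ⟨r, hr, hi⟩ := interp h
  set c1 : ℝ := d * (40000000 * R ^ 2) with hc1
  set c2 : ℝ := d * (20 * L ^ 2 * (d / r)) with hc2
  have c10 : 0 ≤ c1 := by positivity
  have c20 : 0 ≤ c2 := by positivity
  refine ⟨√(c1 + c2 + 4 * L ^ 2 / r), by positivity, fun μ ν _ _ hμ hν T S hT hS κ e1 e2 => ?_⟩
  have : IsProbabilityMeasure κ := ⟨by
    rw [← measure_univ (μ := μ), ← e1, Measure.map_apply measurable_fst MeasurableSet.univ]; rfl⟩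
  have hκ : ∀ᵐ p ∂κ, p ∈ Y ×ˢ Y := by
    filter_upwards [ae_of_ae_map measurable_fst.aemeasurable (e1 ▸ hμ),
      ae_of_ae_map measurable_snd.aemeasurable (e2 ▸ hν)] with p h1 h2 using ⟨h1, h2⟩
  have A0 : 0 ≤ ∫ p, ‖p.1 - p.2‖ ^ 2 ∂κ := integral_nonneg fun _ => sq_nonneg _
  have key : ∀ τ, 0 < τ → τ ≤ r → ∫ x, ‖T x - S x‖ ^ 2 ∂un K ≤
      c1 * (∫ p, ‖p.1 - p.2‖ ^ 2 ∂κ) / τ ^ 2 + c2 * τ := by
    intro τ t0 t1
    have h1 : ∀ δ, 0 < δ → δ ≤ 1 → ∫ x, ‖T x - S x‖ ^ 2 ∂un K ≤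
        c1 * (∫ p, ‖p.1 - p.2‖ ^ 2 ∂κ + δ ^ 2) / τ ^ 2 + c2 * τ + d * (48 * L * R * δ / τ) := by
      intro δ d0 d1
      obtain ⟨φ0, φ1, T0, T1, c, a0, a1, b0, b1, hc⟩ := exists_pair h hd hY hL κ hκ d0 d1
      obtain ⟨η0, f0, g0⟩ := sub_opt h hd hY L0.le hL hμ hT a0 (e1 ▸ b0)
      obtain ⟨η1, f1, g1⟩ := sub_opt h hd hY L0.le hL hν hS a1 (e2 ▸ b1)
      have := hi L0.le f0 f1 c τ t0 t1
      simp only [norm_sub_rev (S _)] at this
      refine this.trans (le_trans (mul_le_mul_of_nonneg_left (add_le_add (add_le_add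
        (div_le_div_of_nonneg_right (mul_le_mul_of_nonneg_left hc (by norm_num)) (by positivity))
        le_rfl) (div_le_div_of_nonneg_right (mul_le_mul_of_nonneg_left (add_le_add g0 g1)
          (by positivity)) t0.le)) (Nat.cast_nonneg d)) (le_of_eq ?_))
      rw [hc1, hc2]; ring
    have h2 : ContinuousAt (fun δ : ℝ => c1 * (∫ p, ‖p.1 - p.2‖ ^ 2 ∂κ + δ ^ 2) / τ ^ 2 + c2 * τ +
      d * (48 * L * R * δ / τ)) 0 := by fun_prop
    have := ge_of_tendsto (h2.tendsto.mono_left (nhdsWithin_le_nhds (s := Ioi 0))) (by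
      filter_upwards [Ioc_mem_nhdsGT zero_lt_one] with δ hδ using h1 δ hδ.1 hδ.2)
    simpa using this
  have triv : ∫ x, ‖T x - S x‖ ^ 2 ∂un K ≤ 4 * L ^ 2 := by
    have := norm_integral_le_of_norm_le_const (μ := un K) (C := 4 * L ^ 2)
      (f := fun x => ‖T x - S x‖ ^ 2) (by
        filter_upwards [bd_map hL hμ hT.1 hT.2.1, bd_map hL hν hS.1 hS.2.1] with x b1 b2
        rw [Real.norm_eq_abs, abs_pow, abs_norm]
        nlinarith [norm_sub_le (T x) (S x), norm_nonneg (T x - S x)])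
    simpa using (le_abs_self _).trans this
  generalize ∫ x, ‖T x - S x‖ ^ 2 ∂un K = J at *
  generalize ∫ p, ‖p.1 - p.2‖ ^ 2 ∂κ = A at *
  obtain ⟨t, t0, ht, hA⟩ : ∃ t, 0 ≤ t ∧ √A ^ (1 / 3 : ℝ) = t ∧ A = t ^ 6 := by
    refine ⟨_, by positivity, rfl, ?_⟩
    rw [← Real.rpow_natCast, ← Real.rpow_mul (sqrt_nonneg _)]
    norm_num [sq_sqrt A0]
  rw [ht, ← sqrt_sq t0, ← sqrt_mul (by positivity)]
  refine sqrt_le_sqrt ?_
  have l0 : 0 ≤ 4 * L ^ 2 / r := by positivity
  rcases t0.eq_or_lt with rfl | t0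
  · have h2 : ContinuousAt (fun τ : ℝ => c2 * τ) 0 := by fun_prop
    have := ge_of_tendsto (h2.tendsto.mono_left (nhdsWithin_le_nhds (s := Ioi 0))) (by
      filter_upwards [Ioc_mem_nhdsGT hr] with τ hτ
      simpa [hA] using key τ hτ.1 hτ.2 : ∀ᶠ τ in _, J ≤ _)
    simpa using this
  rcases le_total (t ^ 2) r with h1 | h1
  · have := key _ (by positivity) h1
    rw [hA, show c1 * t ^ 6 / (t ^ 2) ^ 2 = c1 * t ^ 2 by field_simp] at this
    nlinarith [sq_nonneg t]
  · have := mul_le_mul_of_nonneg_left h1 l0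
    rw [div_mul_cancel₀ _ hr.ne'] at this
    nlinarith [sq_nonneg t]

/-- the cube -/
def cube (d : ℕ) : Set (E d) := {x | ∀ i, |x i| ≤ 1}

theorem cube_body (d : ℕ) : Body (cube d) (d + 1) := by
  have hb : ∀ x ∈ cube d, ‖x‖ ≤ d + 1 := fun x hx => by
    refine abs_le_of_sq_le_sq' ?_ (by positivity) |>.2
    rw [EuclideanSpace.real_norm_sq_eq]
    have := Finset.sum_le_card_nsmul Finset.univ (fun i => x i ^ 2) 1 fun i _ =>
      (sq_le_one_iff_abs_le_one _).2 (hx i)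
    simp only [Finset.card_univ, Fintype.card_fin, nsmul_eq_mul, mul_one] at this
    nlinarith [(Nat.cast_nonneg d : (0 : ℝ) ≤ d)]
  refine ⟨Metric.isCompact_of_isClosed_isBounded ?_ (isBounded_iff_forall_norm_le.2 ⟨_, hb⟩), ?_,
    ⟨0, mem_interior_iff_mem_nhds.2 (mem_of_superset (Metric.ball_mem_nhds 0 one_pos)
      fun x hx i => ?_)⟩, by positivity, hb⟩
  · simp only [cube, ofPred_forall]
    exact isClosed_iInter fun i => isClosed_le (by fun_prop) continuous_const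
  · intro x hx y hy a b ha hb hab i
    have h1 := abs_le.1 (hx i)
    have h2 := abs_le.1 (hy i)
    simp only [PiLp.add_apply, PiLp.smul_apply, smul_eq_mul]
    exact abs_le.2 ⟨by nlinarith, by nlinarith⟩
  · exact (PiLp.norm_apply_le x i).trans (mem_ball_zero_iff.1 hx).le

/-- two-point transport map -/
noncomputable def tp (a : E d) (x : E d) : E d := {x | 1 < inner ℝ x a}.indicator (fun _ => a) x

theorem tp_meas (a : E d) : Measurable (tp a) :=
  measurable_const.indicator (measurableSet_lt measurable_const (by fun_prop))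

theorem tp_mem (a x : E d) : tp a x ∈ ({0, a} : Set (E d)) := by
  unfold tp
  by_cases hx : x ∈ {x | 1 < inner ℝ x a}
  · simp [indicator_of_mem hx]
  · simp [indicator_of_notMem hx]

theorem tp_opt (h : Body K R) (a : E d) (i : Fin d) (ha : a i = 1) :
    OptMap K ((un K).map (tp a)) (tp a) := by
  refine ⟨tp_meas a, rfl, fun S hS e => ?_⟩
  have hμ : ∀ᵐ z ∂(un K).map (tp a), z ∈ ({0, a} : Set (E d)) :=
    (ae_map_iff (tp_meas a).aemeasurable (by measurability)).2 (Eventually.of_forall (tp_mem a))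
  have hL : ∀ z ∈ ({0, a} : Set (E d)), ‖z‖ + 1 ≤ ‖a‖ + 1 := by simp
  have b1 := bd_map hL hμ hS e
  have b2 := bd_map (K := K) hL hμ (tp_meas a) rfl
  rw [cost_eq h hS e b1, cost_eq h (tp_meas a) rfl b2]
  have e1 : ∫ x, S x i ∂un K = ∫ x, tp a x i ∂un K := by
    rw [← integral_map (f := fun z : E d => z i) hS.aemeasurable (by fun_prop), e,
      integral_map (tp_meas a).aemeasurable (by fun_prop)]
  have i1 := fun S (hS : Measurable S) b => int_bd (L := ‖a‖ + 1) h hS.aestronglyMeasurable b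
    (F := fun p => inner ℝ p.1 p.2) (by fun_prop)
  have i2 := fun S (hS : Measurable S) b => int_bd (L := ‖a‖ + 1) h hS.aestronglyMeasurable b
    (F := fun p => p.2 i) (by fun_prop)
  have := integral_mono_ae ((i1 S hS b1).sub (i2 S hS b1))
    ((i1 _ (tp_meas a) b2).sub (i2 _ (tp_meas a) b2)) (by
      filter_upwards [ae_of_ae_map hS.aemeasurable (e ▸ hμ)] with x hx
      simp only [Pi.sub_apply, tp]
      by_cases h1 : x ∈ {x | 1 < inner ℝ x a}
      · have h2 : 1 < inner ℝ x a := h1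
        rcases hx with hx | hx <;> simp [indicator_of_mem h1, hx, mem_singleton_iff.1, ha]
        · linarith
        · rw [hx]; simp [ha]
      · have h2 : inner ℝ x a ≤ 1 := not_lt.1 h1
        rcases hx with hx | hx
        · simp [indicator_of_notMem h1, hx]
        · rw [hx]; simp [ha, h2])
  rw [integral_sub' (i1 S hS b1) (i2 S hS b1),
    integral_sub' (i1 _ (tp_meas a) b2) (i2 _ (tp_meas a) b2)] at this
  simp only at this
  unfold cor
  linarith

theorem example_pair (hd : 2 ≤ d) : ∃ c > 0, ∀ η : ℝ, 0 < η → η ≤ 1 →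
    ∃ (a b : E d) (κ : Measure (E d × E d)) (t : ℝ), ‖a‖ ≤ 2 ∧ ‖b‖ ≤ 2 ∧
      OptMap (cube d) ((un (cube d)).map (tp a)) (tp a) ∧
      OptMap (cube d) ((un (cube d)).map (tp b)) (tp b) ∧
      κ.map Prod.fst = (un (cube d)).map (tp a) ∧ κ.map Prod.snd = (un (cube d)).map (tp b) ∧
      c * η ≤ t ^ 2 ∧ 0 ≤ t ∧ √(∫ p, ‖p.1 - p.2‖ ^ 2 ∂κ) = 2 * η * t ∧
      t ≤ √(∫ x, ‖tp a x - tp b x‖ ^ 2 ∂un (cube d)) := by
  have h := cube_body d
  have := h.prob
  let i0 : Fin d := ⟨0, by omega⟩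
  let i1 : Fin d := ⟨1, by omega⟩
  have hne : i0 ≠ i1 := by simp [i0, i1]
  have v0 : 0 < (volume (cube d))⁻¹.toReal :=
    ENNReal.toReal_pos (ENNReal.inv_ne_zero.2 h.cpt.measure_lt_top.ne) (ENNReal.inv_ne_top.2 h.vol)
  refine ⟨(volume (cube d))⁻¹.toReal * (1 / 2) ^ d, by positivity, fun η h0 h1 => ?_⟩
  let v : ℝ → E d := fun s => EuclideanSpace.single i0 s + EuclideanSpace.single i1 1
  have hv : ∀ s x, inner ℝ x (v s) = s * x i0 + x i1 := fun s x => by
    simp [v, inner_add_right, EuclideanSpace.inner_single_right]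
  have hv1 : ∀ s, v s i1 = 1 := fun s => by simp [v, hne.symm]
  have hv2 : ∀ s, |s| ≤ 1 → ‖v s‖ ≤ 2 := fun s hs => (norm_add_le _ _).trans (by
    simp only [PiLp.norm_single, Real.norm_eq_abs, abs_one]; linarith)
  let σ : E d ≃ₗᵢ[ℝ] E d := LinearIsometryEquiv.piLpCongrRight 2 fun i =>
    if i = i0 then LinearIsometryEquiv.neg ℝ else LinearIsometryEquiv.refl ℝ ℝ
  have hσ : ∀ x i, σ x i = if i = i0 then -x i else x i := fun x i => by
    simp only [σ, LinearIsometryEquiv.piLpCongrRight_apply]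
    split_ifs <;> rfl
  have hσ' : MeasurePreserving σ (un (cube d)) (un (cube d)) := by
    have e : σ ⁻¹' cube d = cube d := by
      ext x
      refine forall_congr' fun i => ?_
      rw [hσ]; split_ifs <;> simp
    have := σ.measurePreserving.restrict_preimage h.cpt.measurableSet
    rw [e] at this
    exact this.smul_measure _
  let A : Set (E d) := {x | 1 < inner ℝ x (v η)}
  have hA : MeasurableSet A := measurableSet_lt measurable_const (by fun_prop)
  have m1 : Measurable fun x => tp (v (-η)) (σ x) := (tp_meas _).comp hσ'.measurable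
  refine ⟨v η, v (-η), (un (cube d)).map fun x => (tp (v η) x, tp (v (-η)) (σ x)),
    √((un (cube d)).real A), hv2 _ (by rwa [abs_of_pos h0]),
    hv2 _ (by rwa [abs_neg, abs_of_pos h0]), tp_opt h _ i1 (hv1 _), tp_opt h _ i1 (hv1 _),
    Measure.map_map measurable_fst ((tp_meas _).prodMk m1), ?_, ?_, sqrt_nonneg _, ?_,
    sqrt_le_sqrt ?_⟩
  · rw [Measure.map_map measurable_snd ((tp_meas _).prodMk m1)]
    conv_rhs => rw [← hσ'.map_eq, Measure.map_map (tp_meas _) hσ'.measurable]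
    rfl
  · let Q : Set (E d) := WithLp.ofLp ⁻¹' Set.pi univ fun i =>
      Ioc (1 - 1 / 2 * if i = i1 then η else 1) 1
    have hQ : MeasurableSet (Set.pi univ fun i : Fin d =>
      Ioc (1 - 1 / 2 * if i = i1 then η else 1) (1 : ℝ)) :=
      MeasurableSet.univ_pi fun _ => measurableSet_Ioc
    have q1 : volume Q = ENNReal.ofReal ((1 / 2) ^ d * η) := by
      rw [(PiLp.volume_preserving_ofLp (Fin d)).measure_preimage hQ.nullMeasurableSet,
        Real.volume_pi_Ioc, ← ENNReal.ofReal_prod_of_nonneg fun i _ => by split_ifs <;> linarith]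
      simp only [sub_sub_cancel, Finset.prod_mul_distrib]
      simp
    have q2 : Q ⊆ A ∩ cube d := fun x hx => by
      refine ⟨?_, fun i => ?_⟩
      · have e0 := (hx i0 (mem_univ _)).1
        have e1 := (hx i1 (mem_univ _)).1
        simp only [if_neg hne, if_true] at e0 e1
        change 1 < inner ℝ x (v η)
        rw [hv]; nlinarith
      · have e0 := hx i (mem_univ _)
        refine abs_le.2 ⟨?_, e0.2⟩
        have := e0.1
        split_ifs at this <;> linarith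
    rw [sq_sqrt measureReal_nonneg, measureReal_def, un, Measure.smul_apply,
      Measure.restrict_apply hA, smul_eq_mul, ENNReal.toReal_mul, mul_assoc]
    refine mul_le_mul_of_nonneg_left ?_ v0.le
    rw [← ENNReal.ofReal_le_iff_le_toReal
      (ne_top_of_le_ne_top h.cpt.measure_lt_top.ne (measure_mono inter_subset_right)), ← q1]
    exact measure_mono q2
  · rw [integral_map ((tp_meas _).prodMk m1).aemeasurable (by fun_prop)]
    have e : ∀ x, ‖tp (v η) x - tp (v (-η)) (σ x)‖ ^ 2 = A.indicator (fun _ => (2 * η) ^ 2) x := by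
      intro x
      have e1 : σ x ∈ {x | 1 < inner ℝ x (v (-η))} ↔ x ∈ A := by
        simp only [A, mem_ofPred_eq, hv, hσ, if_true, if_neg hne.symm, neg_mul_neg]
      unfold tp
      by_cases hx : x ∈ A
      · rw [indicator_of_mem hx, indicator_of_mem hx, indicator_of_mem (e1.2 hx)]
        have : v η - v (-η) = EuclideanSpace.single i0 (2 * η) := by
          ext i; by_cases hi : i = i0 <;> simp [v, hi, two_mul]
        rw [this]; simp [mul_pow]
      · rw [indicator_of_notMem hx, indicator_of_notMem hx, indicator_of_notMem (mt e1.1 hx)]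
        simp
    simp only [e]
    rw [integral_indicator_const _ hA, smul_eq_mul, sqrt_mul measureReal_nonneg,
      sqrt_sq (by positivity), mul_comm]
  · have b : ∀ s, ∀ x, ‖tp (v s) x‖ ≤ ‖v s‖ := fun s x => norm_indicator_le_norm_self _ _
    have := integral_mono_ae (μ := un (cube d)) ((integrable_const (1 : ℝ)).indicator hA)
      (g := fun x => ‖tp (v η) x - tp (v (-η)) x‖ ^ 2)
      (int_bd h ((tp_meas _).sub (tp_meas _)).aestronglyMeasurable (Eventually.of_forall fun x =>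
        (norm_sub_le _ _).trans (add_le_add (b _ x) (b _ x))) (F := fun p => ‖p.2‖ ^ 2)
        (by fun_prop)) (by
      filter_upwards [h.mem] with x hx
      by_cases hA' : x ∈ A
      · have e1 : x ∉ {x | 1 < inner ℝ x (v (-η))} := fun e => by
          have := (abs_le.1 (hx i1)).2
          simp only [A, mem_ofPred_eq, hv] at e hA'
          linarith
        unfold tp
        rw [indicator_of_mem hA', indicator_of_mem hA', indicator_of_notMem e1, sub_zero]
        have := PiLp.norm_apply_le (v η) i1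
        rw [hv1, norm_one] at this
        nlinarith
      · rw [indicator_of_notMem hA']; positivity)
    simpa [integral_indicator_const _ hA] using this

theorem small {c C α : ℝ} (hc : 0 < c) (h1 : 1 / 3 < α) (h2 : α ≤ 1) :
    ∃ η, 0 < η ∧ η ≤ 1 ∧ ∀ t w, c * η ≤ t ^ 2 → 0 ≤ t → 0 ≤ w → w ≤ 2 * η * t →
      C * w ^ α < t := by
  have k1 : ContinuousAt (fun η : ℝ => |C| * 2 ^ α * η ^ ((3 * α - 1) / 2)) 0 :=
    continuousAt_const.mul (Real.continuousAt_rpow_const _ _ (Or.inr (by linarith)))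
  have k2 := k1.eventually_lt (continuousAt_const (y := c ^ ((1 - α) / 2))) (by
    rw [Real.zero_rpow (by linarith), mul_zero]; positivity)
  obtain ⟨η, e1, e2, e3⟩ :=
    ((k2.filter_mono nhdsWithin_le_nhds).and (Ioc_mem_nhdsGT zero_lt_one)).exists
  refine ⟨η, e2, e3, fun t w a1 a2 a3 a4 => ?_⟩
  have t0 : 0 < t := lt_of_le_of_ne a2 fun e => by
    rw [← e] at a1
    nlinarith [mul_pos hc e2]
  have b1 : (c * η) ^ ((1 - α) / 2) ≤ t ^ (1 - α) := by
    refine (Real.rpow_le_rpow (by positivity) a1 (by linarith)).trans (le_of_eq ?_)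
    rw [← Real.rpow_natCast, ← Real.rpow_mul a2]; congr 1; push_cast; ring
  have b2 : C * w ^ α ≤ |C| * (2 * η * t) ^ α :=
    mul_le_mul (le_abs_self _) (Real.rpow_le_rpow a3 a4 (by linarith)) (by positivity)
      (abs_nonneg _)
  have b3 : η ^ α = η ^ ((3 * α - 1) / 2) * η ^ ((1 - α) / 2) := by
    rw [← Real.rpow_add e2]; congr 1; ring
  have b4 : t = t ^ (1 - α) * t ^ α := by rw [← Real.rpow_add t0]; simp
  rw [Real.mul_rpow (by positivity) a2, Real.mul_rpow (by positivity) e2.le, b3] at b2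
  rw [Real.mul_rpow hc.le e2.le] at b1
  have b5 := mul_lt_mul_of_pos_right e1 (show 0 < η ^ ((1 - α) / 2) by positivity)
  have b6 := mul_lt_mul_of_pos_right (b5.trans_le b1) (show 0 < t ^ α by positivity)
  rw [← b4] at b6
  linarith

end Vale.Agent.P074
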