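import Mathlib

/-!
The Prekopa Leindler inequality at the midpoint.
-/

namespace Vale.Agent.P074

open MeasureTheory Set
open scoped ENNReal NNReal

theorem bm_aux {A B S : Set ℝ} {a b : ℝ} (ha : a ∈ A) (hb : b ∈ B)
    (h : ∀ x ∈ A, ∀ y ∈ B, x + y ∈ S) :
    volume (A ∩ Iic a) + volume (B ∩ Ici b) ≤ volume S := by
  rw [← measure_inter_add_sdiff S (measurableSet_Iic (a := a + b))]
  refine add_le_add ?_ ?_
  · rw [← measure_preimage_add_right volume b (S ∩ Iic (a + b))]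
    exact measure_mono fun x hx => ⟨h x hx.1 b hb, by simpa using hx.2⟩
  · rw [← measure_preimage_add volume a (S \ Iic (a + b)),
      ← measure_congr ((ae_eq_refl B).inter (Ioi_ae_eq_Ici (a := b)))]
    exact measure_mono fun y hy => ⟨h a ha y hy.1, by simpa using hy.2⟩

theorem bm1 {A B C : Set ℝ} (hA : MeasurableSet A) (hB : MeasurableSet B) (hA0 : A.Nonempty)
    (hB0 : B.Nonempty) (h : ∀ x ∈ A, ∀ y ∈ B, (1 / 2 : ℝ) • (x + y) ∈ C) :
    volume A + volume B ≤ 2 * volume C := by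
  have hS : volume ((fun z : ℝ => (1 / 2 : ℝ) * z) ⁻¹' C) = 2 * volume C := by
    rw [Real.volume_preimage_mul_left (by norm_num)]; norm_num
  obtain ⟨a0, ha0⟩ := hA0
  obtain ⟨b0, hb0⟩ := hB0
  have h1 : ∀ K ⊆ A, IsCompact K → ∃ a ∈ A, K ⊆ A ∩ Iic a := by
    intro K hK hc
    obtain ⟨a, ha, hm⟩ := (hc.insert a0).exists_isGreatest (insert_nonempty _ _)
    exact ⟨a, insert_subset ha0 hK ha, fun x hx => ⟨hK hx, hm (mem_insert_of_mem _ hx)⟩⟩
  have h2 : ∀ K ⊆ B, IsCompact K → ∃ a ∈ B, K ⊆ B ∩ Ici a := by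
    intro K hK hc
    obtain ⟨a, ha, hm⟩ := (hc.insert b0).exists_isLeast (insert_nonempty _ _)
    exact ⟨a, insert_subset hb0 hK ha, fun x hx => ⟨hK hx, hm (mem_insert_of_mem _ hx)⟩⟩
  rw [← hS, hA.measure_eq_iSup_isCompact volume, hB.measure_eq_iSup_isCompact volume]
  simp only [iSup_and']
  refine ENNReal.biSup_add_biSup_le' ⟨∅, empty_subset _, isCompact_empty⟩
    ⟨∅, empty_subset _, isCompact_empty⟩ fun K hK L hL => ?_
  obtain ⟨a, ha, hK⟩ := h1 K hK.1 hK.2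
  obtain ⟨b, hb, hL⟩ := h2 L hL.1 hL.2
  exact (add_le_add (measure_mono hK) (measure_mono hL)).trans
    (bm_aux (S := (fun z : ℝ => (1 / 2 : ℝ) * z) ⁻¹' C) ha hb h)

/-- the midpoint form of the inequality for a measure on a vector space -/
def PL {E : Type} [AddCommGroup E] [Module ℝ E] [MeasurableSpace E] (μ : Measure E) : Prop :=
  ∀ f g h : E → ℝ≥0∞, Measurable f → Measurable g → Measurable h →
    (∀ x y, f x * g y ≤ h ((1 / 2 : ℝ) • (x + y)) ^ 2) →
    (∫⁻ x, f x ∂μ) * ∫⁻ x, g x ∂μ ≤ (∫⁻ x, h x ∂μ) ^ 2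

theorem layer {f : ℝ → ℝ≥0∞} (hf : Measurable f) (h1 : ∀ x, f x ≤ 1) :
    ∫⁻ x, f x = ∫⁻ t in Ioi (0 : ℝ), volume {x | ENNReal.ofReal t < f x} := by
  have h2 : ∀ x, f x ≠ ⊤ := fun x => ne_top_of_le_ne_top ENNReal.one_ne_top (h1 x)
  have := lintegral_eq_lintegral_meas_lt (volume : Measure ℝ) (f := fun x => (f x).toReal)
    (Filter.Eventually.of_forall fun _ => ENNReal.toReal_nonneg) hf.ennreal_toReal.aemeasurable
  simp only [ENNReal.ofReal_toReal (h2 _)] at this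
  rw [this]
  refine setLIntegral_congr_fun measurableSet_Ioi fun t ht => ?_
  simp only [ENNReal.ofReal_lt_iff_lt_toReal (le_of_lt ht) (h2 _)]

theorem pl_norm {f g h : ℝ → ℝ≥0∞} (hf : Measurable f) (hg : Measurable g) (hh : Measurable h)
    (f1 : ⨆ x, f x = 1) (g1 : ⨆ x, g x = 1)
    (H : ∀ x y, f x * g y ≤ h ((1 / 2 : ℝ) • (x + y)) ^ 2) :
    (∫⁻ x, f x) + ∫⁻ x, g x ≤ 2 * ∫⁻ x, h x := by
  have f2 : ∀ x, f x ≤ 1 := fun x => f1 ▸ le_iSup f x
  have g2 : ∀ x, g x ≤ 1 := fun x => g1 ▸ le_iSup g x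
  refine le_trans ?_ (mul_le_mul_right (lintegral_mono (f := fun x => min (h x) 1)
    fun x => min_le_left _ _) 2)
  have hm : ∀ {k : ℝ → ℝ≥0∞}, Measurable fun t : ℝ => volume {x | ENNReal.ofReal t < k x} :=
    fun {k} => Antitone.measurable fun s t hst =>
      measure_mono fun x hx => lt_of_le_of_lt (ENNReal.ofReal_le_ofReal hst) hx
  rw [layer hf f2, layer hg g2, layer (hh.min measurable_const) fun x => min_le_right _ _,
    ← lintegral_add_left hm, ← lintegral_const_mul _ hm]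
  refine lintegral_mono fun t => ?_
  by_cases ht : ENNReal.ofReal t < 1
  · refine bm1 (measurableSet_lt measurable_const hf) (measurableSet_lt measurable_const hg)
      (lt_iSup_iff.1 (ht.trans_eq f1.symm) : ∃ x, _ < f x)
      (lt_iSup_iff.1 (ht.trans_eq g1.symm) : ∃ x, _ < g x) fun x hx y hy => lt_min ?_ ht
    refine lt_of_pow_lt_pow_left' (n := 2) (lt_of_lt_of_le ?_ (H x y))
    rw [sq]; exact ENNReal.mul_lt_mul hx hy
  · have e : ∀ k : ℝ → ℝ≥0∞, (∀ x, k x ≤ 1) → {x | ENNReal.ofReal t < k x} = ∅ := fun k hk =>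
      eq_empty_of_forall_notMem fun x hx => ht (lt_of_lt_of_le hx (hk x))
    simp [e f f2, e g g2]

theorem amgm {a b c : ℝ≥0∞} (h : a + b ≤ 2 * c) : a * b ≤ c ^ 2 := by
  by_cases hc : c = ⊤
  · simp [hc]
  have h1 : a + b ≠ ⊤ := ne_top_of_le_ne_top (ENNReal.mul_ne_top (by simp) hc) h
  lift a to ℝ≥0 using (ENNReal.add_ne_top.1 h1).1
  lift b to ℝ≥0 using (ENNReal.add_ne_top.1 h1).2
  lift c to ℝ≥0 using hc
  norm_cast at h ⊢
  have h' : (a : ℝ) + b ≤ 2 * c := by exact_mod_cast h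
  have : (a : ℝ) * b ≤ c ^ 2 := by nlinarith [a.2, b.2, sq_nonneg ((a : ℝ) - b)]
  exact_mod_cast this

theorem pl_bdd {f g h : ℝ → ℝ≥0∞} (hf : Measurable f) (hg : Measurable g) (hh : Measurable h)
    (f1 : ⨆ x, f x ≠ ⊤) (g1 : ⨆ x, g x ≠ ⊤)
    (H : ∀ x y, f x * g y ≤ h ((1 / 2 : ℝ) • (x + y)) ^ 2) :
    (∫⁻ x, f x) * ∫⁻ x, g x ≤ (∫⁻ x, h x) ^ 2 := by
  by_cases f0 : ⨆ x, f x = 0
  · simp only [ENNReal.iSup_eq_zero] at f0; simp [f0]
  by_cases g0 : ⨆ x, g x = 0
  · simp only [ENNReal.iSup_eq_zero] at g0; simp [g0]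
  set F := ⨆ x, f x with hF
  set G := ⨆ x, g x with hG
  obtain ⟨r, hr⟩ : ∃ r : ℝ≥0∞, r ^ 2 = F⁻¹ * G⁻¹ :=
    ⟨(F⁻¹ * G⁻¹) ^ (1 / 2 : ℝ), by rw [← ENNReal.rpow_natCast, ← ENNReal.rpow_mul]; norm_num⟩
  have := amgm (pl_norm (f := fun x => F⁻¹ * f x) (g := fun x => G⁻¹ * g x) (h := fun x => r * h x)
    (hf.const_mul _) (hg.const_mul _) (hh.const_mul _)
    (by rw [← ENNReal.mul_iSup, ENNReal.inv_mul_cancel f0 f1])
    (by rw [← ENNReal.mul_iSup, ENNReal.inv_mul_cancel g0 g1])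
    (fun x y => by rw [mul_pow, hr, mul_mul_mul_comm]; exact mul_le_mul_right (H x y) _))
  rw [lintegral_const_mul _ hf, lintegral_const_mul _ hg, lintegral_const_mul _ hh, mul_pow, hr,
    mul_mul_mul_comm] at this
  exact (ENNReal.mul_le_mul_iff_right (mul_ne_zero (ENNReal.inv_ne_zero.2 f1)
    (ENNReal.inv_ne_zero.2 g1)) (ENNReal.mul_ne_top (ENNReal.inv_ne_top.2 f0)
    (ENNReal.inv_ne_top.2 g0))).1 this

theorem pl_real : PL (volume : Measure ℝ) := by
  intro f g h hf hg hh H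
  have e : ∀ k : ℝ → ℝ≥0∞, Measurable k → ∫⁻ x, k x = ⨆ n : ℕ, ∫⁻ x, min (k x) n := by
    intro k hk
    rw [← lintegral_iSup (fun n => hk.min measurable_const)
      fun n m hnm x => min_le_min le_rfl (by exact_mod_cast hnm)]
    refine lintegral_congr fun x => ?_
    rw [← inf_iSup_eq, ENNReal.iSup_natCast, inf_top_eq]
  rw [e f hf, e g hg, ENNReal.iSup_mul]
  refine iSup_le fun n => ?_
  rw [ENNReal.mul_iSup]
  refine iSup_le fun m => pl_bdd (hf.min measurable_const) (hg.min measurable_const) hh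
    (ne_top_of_le_ne_top (ENNReal.natCast_ne_top n) (iSup_le fun x => min_le_right _ _))
    (ne_top_of_le_ne_top (ENNReal.natCast_ne_top m) (iSup_le fun x => min_le_right _ _))
    fun x y => (mul_le_mul' (min_le_left _ _) (min_le_left _ _)).trans (H x y)

theorem PL.prod {E F : Type} [AddCommGroup E] [Module ℝ E] [MeasurableSpace E] {μ : Measure E}
    [AddCommGroup F] [Module ℝ F] [MeasurableSpace F] {ν : Measure F} [SFinite ν]
    (h1 : PL μ) (h2 : PL ν) : PL (μ.prod ν) := by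
  intro f g h hf hg hh H
  rw [lintegral_prod _ hf.aemeasurable, lintegral_prod _ hg.aemeasurable,
    lintegral_prod _ hh.aemeasurable]
  exact h1 _ _ _ hf.lintegral_prod_right' hg.lintegral_prod_right' hh.lintegral_prod_right'
    fun x y => h2 _ _ _ (hf.comp measurable_prodMk_left) (hg.comp measurable_prodMk_left)
      (hh.comp measurable_prodMk_left) fun x' y' => H (x, x') (y, y')

theorem PL.equiv {E F : Type} [AddCommGroup E] [Module ℝ E] [MeasurableSpace E] {μ : Measure E}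
    [AddCommGroup F] [Module ℝ F] [MeasurableSpace F] {ν : Measure F} (h1 : PL μ) {e : E → F}
    (he : MeasurePreserving e μ ν)
    (h2 : ∀ x y, e ((1 / 2 : ℝ) • (x + y)) = (1 / 2 : ℝ) • (e x + e y)) : PL ν := by
  intro f g h hf hg hh H
  rw [← he.lintegral_comp hf, ← he.lintegral_comp hg, ← he.lintegral_comp hh]
  exact h1 _ _ _ (hf.comp he.measurable) (hg.comp he.measurable) (hh.comp he.measurable)
    fun x y => by simp only [h2]; exact H _ _

theorem pl_pi (n : ℕ) : PL (volume : Measure (Fin n → ℝ)) := by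
  induction n with
  | zero =>
    intro f g h hf hg hh H
    rw [volume_pi, Measure.pi_of_empty, lintegral_dirac' _ hf, lintegral_dirac' _ hg,
      lintegral_dirac' _ hh]
    exact (H _ _).trans (le_of_eq (by congr 2; exact Subsingleton.elim _ _))
  | succ n ih =>
    refine (pl_real.prod ih).equiv
      (volume_preserving_piFinSuccAbove (fun _ : Fin (n + 1) => ℝ) 0).symm fun x y => ?_
    funext i
    refine Fin.cases ?_ (fun j => ?_) i <;>
      simp [MeasurableEquiv.piFinSuccAbove, Fin.insertNthEquiv, mul_add]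

theorem pl_euc (n : ℕ) : PL (volume : Measure (EuclideanSpace ℝ (Fin n))) :=
  (pl_pi n).equiv (PiLp.volume_preserving_toLp (Fin n)) fun _ _ => rfl

end Vale.Agent.P074
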