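import Vale.Agent.P074.Stab

/-!
Semi-discrete optimal transport.
-/

namespace Vale.Agent.P074

open MeasureTheory Set Real Filter
open scoped ENNReal Topology

variable {d : ℕ}

/-- a convex body inside the ball of radius `R` -/
structure Body (K : Set (E d)) (R : ℝ) : Prop where
  cpt : IsCompact K
  cvx : Convex ℝ K
  int : (interior K).Nonempty
  pos : 0 < R
  bd : ∀ x ∈ K, ‖x‖ ≤ R

variable {K : Set (E d)} {R : ℝ}

theorem Body.vol (h : Body K R) : volume K ≠ 0 := (Measure.measure_pos_of_nonempty_interior _ h.int).ne'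

theorem Body.prob (h : Body K R) : IsProbabilityMeasure (un K) := un_prob h.cpt h.vol

theorem Body.intg (h : Body K R) {f : E d → ℝ} (hf : Continuous f) : Integrable f (un K) :=
  integrableOn_univ.1 (intOn h.cpt h.vol hf)

theorem Body.ae (h : Body K R) {p : E d → Prop} (hp : ∀ᵐ x, x ∈ K → p x) : ∀ᵐ x ∂un K, p x :=
  Measure.ae_smul_measure ((ae_restrict_iff' h.cpt.measurableSet).2 hp) _

theorem Body.ae' (h : Body K R) {p : E d → Prop} (hp : ∀ᵐ x ∂un K, p x) : ∀ᵐ x, x ∈ K → p x :=
  (ae_restrict_iff' h.cpt.measurableSet).1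
    ((Measure.ae_ennreal_smul_measure_iff (ENNReal.inv_ne_zero.2 h.cpt.measure_lt_top.ne)).1 hp)

theorem Body.mem (h : Body K R) : ∀ᵐ x ∂un K, x ∈ K := h.ae (Eventually.of_forall fun _ => id)

theorem hyper_null {w : E d} (hw : w ≠ 0) (t : ℝ) : ∀ᵐ x : E d, inner ℝ x w ≠ t := by
  let s : AffineSubspace ℝ (E d) :=
    (AffineSubspace.mk' t (⊥ : Submodule ℝ ℝ)).comap (innerSL ℝ w).toLinearMap.toAffineMap
  have hs : ∀ x, x ∈ s ↔ inner ℝ x w = t := fun x => by
    simp [s, AffineSubspace.mem_comap, AffineSubspace.mem_mk', sub_eq_zero, real_inner_comm]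
  have := Measure.addHaar_affineSubspace volume s fun h => by
    have h1 := (hs 0).1 (h ▸ AffineSubspace.mem_top _ _ _)
    have h2 := (hs w).1 (h ▸ AffineSubspace.mem_top _ _ _)
    rw [inner_zero_left] at h1
    exact hw (inner_self_eq_zero.1 (h2.trans h1.symm))
  rw [ae_iff]
  convert this using 2
  ext x; simp [← hs]

variable {I : Type} [Fintype I] [Nonempty I]

/-- affine pieces -/
noncomputable def aff (y : I → E d) (ψ : I → ℝ) (i : I) (x : E d) : ℝ := inner ℝ x (y i) - ψ i

/-- the convex potential -/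
noncomputable def pot (y : I → E d) (ψ : I → ℝ) (x : E d) : ℝ :=
  Finset.univ.sup' Finset.univ_nonempty fun i => aff y ψ i x

/-- Laguerre cells -/
def cell (K : Set (E d)) (y : I → E d) (ψ : I → ℝ) (i : I) : Set (E d) :=
  {x | x ∈ K ∧ ∀ j, j ≠ i → aff y ψ j x < aff y ψ i x}

/-- the dual functional -/
noncomputable def Jf (K : Set (E d)) (m : I → ℝ) (y : I → E d) (ψ : I → ℝ) : ℝ :=
  ∫ x, pot y ψ x ∂un K + ∑ i, m i * ψ i

/-- the cells have the prescribed masses -/
def Opt (K : Set (E d)) (m : I → ℝ) (y : I → E d) (ψ : I → ℝ) : Prop :=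
  ∀ i, (un K).real (cell K y ψ i) = m i

variable {y y' : I → E d} {ψ ψ' m : I → ℝ}

omit [Fintype I] [Nonempty I] in
@[fun_prop]
theorem aff_cont (y : I → E d) (ψ : I → ℝ) (i : I) : Continuous (aff y ψ i) := by
  unfold aff; fun_prop

@[fun_prop]
theorem pot_cont (y : I → E d) (ψ : I → ℝ) : Continuous (pot y ψ) :=
  Continuous.finset_sup'_apply _ fun i _ => aff_cont y ψ i

theorem aff_le (y : I → E d) (ψ : I → ℝ) (i : I) (x : E d) : aff y ψ i x ≤ pot y ψ x :=
  Finset.le_sup' (fun i => aff y ψ i x) (Finset.mem_univ i)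

theorem pot_le {x : E d} {t : ℝ} (h : ∀ i, aff y ψ i x ≤ t) : pot y ψ x ≤ t :=
  Finset.sup'_le _ _ fun i _ => h i

theorem pot_eq {i : I} {x : E d} (h : x ∈ cell K y ψ i) : pot y ψ x = aff y ψ i x :=
  le_antisymm (pot_le fun j => (eq_or_ne j i).elim (fun e => e ▸ le_rfl) fun e => (h.2 j e).le)
    (aff_le ..)

omit [Nonempty I] in
theorem cell_meas (h : Body K R) (y : I → E d) (ψ : I → ℝ) (i : I) :
    MeasurableSet (cell K y ψ i) := by
  refine h.cpt.measurableSet.inter (s₂ := {x | ∀ j, j ≠ i → aff y ψ j x < aff y ψ i x}) ?_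
  simp only [ofPred_forall]
  exact MeasurableSet.iInter fun j => MeasurableSet.iInter fun _ =>
    measurableSet_lt (aff_cont ..).measurable (aff_cont ..).measurable

omit [Fintype I] [Nonempty I] in
theorem cell_disj (K : Set (E d)) (y : I → E d) (ψ : I → ℝ) :
    Pairwise (Function.onFun Disjoint (cell K y ψ)) := fun _ _ hij =>
  disjoint_left.2 fun _ hi hj => lt_asymm (hi.2 _ hij.symm) (hj.2 _ hij)

theorem ae_cell (h : Body K R) (hy : Function.Injective y) (ψ : I → ℝ) :
    ∀ᵐ x ∂un K, ∃ i, x ∈ cell K y ψ i := by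
  refine h.ae ?_
  have : ∀ᵐ x : E d, ∀ i j, i ≠ j → inner ℝ x (y i - y j) ≠ ψ i - ψ j := by
    simp only [ae_all_iff]
    exact fun i j hij => hyper_null (sub_ne_zero.2 (hy.ne hij)) _
  filter_upwards [this] with x hx hxK
  obtain ⟨i, -, hi⟩ := Finset.exists_max_image Finset.univ (fun i => aff y ψ i x)
    Finset.univ_nonempty
  refine ⟨i, hxK, fun j hj => lt_of_le_of_ne (hi j (Finset.mem_univ _)) fun e => hx j i hj ?_⟩
  rw [inner_sub_right]
  unfold aff at e
  linarith

theorem sum_cells (h : Body K R) (hy : Function.Injective y) (ψ : I → ℝ) {f : E d → ℝ}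
    (hf : Integrable f (un K)) : ∑ i, ∫ x in cell K y ψ i, f x ∂un K = ∫ x, f x ∂un K := by
  rw [← integral_iUnion_fintype (cell_meas h y ψ) (cell_disj K y ψ) fun i => hf.integrableOn,
    Measure.restrict_eq_self_of_ae_mem]
  filter_upwards [ae_cell h hy ψ] with x hx using mem_iUnion.2 hx

omit [Nonempty I] in
theorem int_aff (h : Body K R) (ho : Opt K m y ψ) (y' : I → E d) (ψ' : I → ℝ) :
    ∑ i, ∫ x in cell K y ψ i, aff y' ψ' i x ∂un K + ∑ i, m i * ψ' i =
      ∑ i, ∫ x in cell K y ψ i, inner ℝ x (y' i) ∂un K := by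
  have := h.prob
  rw [← Finset.sum_add_distrib]
  refine Finset.sum_congr rfl fun i _ => ?_
  unfold aff
  rw [integral_sub (h.intg (by fun_prop)).integrableOn (integrable_const _)]
  simp [ho i]

theorem J_eq (h : Body K R) (hy : Function.Injective y) (ho : Opt K m y ψ) :
    Jf K m y ψ = ∑ i, ∫ x in cell K y ψ i, inner ℝ x (y i) ∂un K := by
  rw [← int_aff h ho y ψ, Jf, ← sum_cells h hy ψ (h.intg (pot_cont ..))]
  congr 1
  exact Finset.sum_congr rfl fun i _ => setIntegral_congr_fun (cell_meas h y ψ i)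
    fun x hx => pot_eq hx

theorem J_ge (h : Body K R) (hy : Function.Injective y) (ho : Opt K m y ψ) (y' : I → E d)
    (ψ' : I → ℝ) : ∑ i, ∫ x in cell K y ψ i, inner ℝ x (y' i) ∂un K ≤ Jf K m y' ψ' := by
  rw [← int_aff h ho y' ψ', Jf, ← sum_cells h hy ψ (h.intg (pot_cont ..))]
  gcongr with i
  · exact (h.intg (aff_cont ..)).integrableOn
  · exact (h.intg (pot_cont ..)).integrableOn
  · exact (cell_meas h y ψ i).nullMeasurableSet
  · exact aff_le ..

theorem J_min (h : Body K R) (hy : Function.Injective y) (ho : Opt K m y ψ) (ψ' : I → ℝ) :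
    Jf K m y ψ ≤ Jf K m y ψ' := (J_eq h hy ho).trans_le (J_ge h hy ho y ψ')

theorem J_cont (h : Body K R) (m : I → ℝ) (y : I → E d) : Continuous (Jf K m y) := by
  have := h.prob
  refine Continuous.add (LipschitzWith.of_le_add fun ψ ψ' => ?_).continuous (by fun_prop)
  have := integral_mono (μ := un K) (h.intg (pot_cont y ψ))
    ((h.intg (pot_cont y ψ')).add (integrable_const (dist ψ ψ'))) fun x => pot_le fun i => by
      have h1 := aff_le y ψ' i x
      have h2 := (abs_le.1 (dist_le_pi_dist ψ ψ' i)).1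
      simp only [aff, Pi.add_apply] at h1 ⊢
      linarith
  simpa [integral_add (h.intg (pot_cont y ψ')) (integrable_const _)] using this

theorem J_shift (h : Body K R) (hm : ∑ i, m i = 1) (y : I → E d) (ψ : I → ℝ) (t : ℝ) :
    Jf K m y (fun i => ψ i - t) = Jf K m y ψ := by
  have := h.prob
  have e : ∀ x, pot y (fun i => ψ i - t) x = pot y ψ x + t := fun x => by
    refine le_antisymm (pot_le fun i => ?_) (le_sub_iff_add_le.1 (pot_le fun i => ?_))
    · have := aff_le y ψ i x
      unfold aff at *; linarith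
    · have := aff_le y (fun i => ψ i - t) i x
      unfold aff at *; linarith
  simp only [Jf, e, integral_add (h.intg (pot_cont y ψ)) (integrable_const _), mul_sub,
    Finset.sum_sub_distrib, ← Finset.sum_mul, hm]
  simp

theorem box (h : Body K R) (m0 : ∀ i, 0 < m i) (hm : ∑ i, m i = 1) (y : I → E d) (M : ℝ) :
    ∃ S : Set (I → ℝ), IsCompact S ∧ ∀ ψ, Jf K m y ψ ≤ M → ∃ t, (fun i => ψ i - t) ∈ S := by
  have := h.prob
  refine ⟨Set.pi univ fun i => Icc 0 ((M + R * ‖y‖) / m i), isCompact_univ_pi fun _ => isCompact_Icc,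
    fun ψ hψ => ?_⟩
  obtain ⟨k, -, hk⟩ := Finset.exists_min_image Finset.univ ψ Finset.univ_nonempty
  refine ⟨ψ k, fun i _ => ⟨sub_nonneg.2 (hk i (Finset.mem_univ _)), ?_⟩⟩
  rw [← J_shift h hm y ψ (ψ k)] at hψ
  have h1 : -(R * ‖y‖) ≤ ∫ x, pot y (fun i => ψ i - ψ k) x ∂un K := by
    have := integral_mono_ae (μ := un K) (integrable_const (-(R * ‖y‖)))
      (h.intg (pot_cont y fun i => ψ i - ψ k)) (by
        filter_upwards [h.mem] with x hx
        refine le_trans ?_ (aff_le _ _ k x)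
        have := (abs_le.1 ((abs_real_inner_le_norm x (y k)).trans
          (mul_le_mul (h.bd x hx) (norm_le_pi_norm y k) (norm_nonneg _) h.pos.le))).1
        simpa [aff] using this)
    simpa using this
  have h2 := Finset.single_le_sum (f := fun i => m i * (ψ i - ψ k))
    (fun i _ => mul_nonneg (m0 i).le (sub_nonneg.2 (hk i (Finset.mem_univ _)))) (Finset.mem_univ i)
  rw [le_div_iff₀ (m0 i)]
  unfold Jf at hψ
  linarith

theorem exists_opt (h : Body K R) (hy : Function.Injective y) (m0 : ∀ i, 0 < m i)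
    (hm : ∑ i, m i = 1) : ∃ ψ, Opt K m y ψ := by
  classical
  have := h.prob
  obtain ⟨S, hS, hS'⟩ := box h m0 hm y (Jf K m y 0)
  obtain ⟨t0, ht0⟩ := hS' 0 le_rfl
  obtain ⟨ψ, -, hψ⟩ := hS.exists_isMinOn ⟨_, ht0⟩ (J_cont h m y).continuousOn
  have hmin : ∀ ψ', Jf K m y ψ ≤ Jf K m y ψ' := by
    intro ψ'
    by_cases h1 : Jf K m y ψ' ≤ Jf K m y 0
    · obtain ⟨t, ht⟩ := hS' ψ' h1
      exact (J_shift h hm y ψ' t) ▸ hψ ht
    · exact le_trans ((J_shift h hm y 0 t0) ▸ hψ ht0) (not_le.1 h1).le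
  have hle : ∀ i, (un K).real (cell K y ψ i) ≤ m i := by
    intro i
    let S : ℕ → Set (E d) := fun n =>
      {x | x ∈ K ∧ ∀ j, j ≠ i → aff y ψ j x + 1 / (n + 1) ≤ aff y ψ i x}
    have hSm : ∀ n, MeasurableSet (S n) := fun n => by
      refine h.cpt.measurableSet.inter
        (s₂ := {x | ∀ j, j ≠ i → aff y ψ j x + 1 / (n + 1) ≤ aff y ψ i x}) ?_
      simp only [ofPred_forall]
      exact MeasurableSet.iInter fun j => MeasurableSet.iInter fun _ =>
        measurableSet_le (by fun_prop) (by fun_prop)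
    have h1 : ∀ n, (un K).real (S n) ≤ m i := by
      intro n
      have hε : (0 : ℝ) < 1 / (n + 1) := by positivity
      have h2 := hmin (ψ + Pi.single i (1 / ((n : ℝ) + 1)))
      have h3 := integral_mono (μ := un K) (h.intg (pot_cont y (ψ + Pi.single i (1 / ((n : ℝ) + 1)))))
        ((h.intg (pot_cont y ψ)).sub ((integrable_const (1 / (n + 1) : ℝ)).indicator (hSm n)))
        fun x => pot_le fun j => by
          have h4 := aff_le y ψ j x
          have h5 := aff_le y ψ i x
          by_cases hx : x ∈ S n <;> by_cases hj : j = i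
          · subst hj; simp only [aff, Pi.sub_apply, indicator_of_mem hx, Pi.add_apply,
              Pi.single_eq_same] at h4 ⊢; linarith
          · have := hx.2 j hj
            simp only [aff, Pi.sub_apply, indicator_of_mem hx, Pi.add_apply,
              Pi.single_eq_of_ne hj] at h4 h5 this ⊢; linarith
          · subst hj; simp only [aff, Pi.sub_apply, indicator_of_notMem hx, Pi.add_apply,
              Pi.single_eq_same] at h4 ⊢; linarith
          · simp only [aff, Pi.sub_apply, indicator_of_notMem hx, Pi.add_apply,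
              Pi.single_eq_of_ne hj] at h4 ⊢; linarith
      rw [integral_sub' (h.intg (pot_cont y ψ)) ((integrable_const _).indicator (hSm n)),
        integral_indicator_const _ (hSm n), smul_eq_mul] at h3
      simp only [Jf, Pi.add_apply, mul_add, Finset.sum_add_distrib, Pi.single_apply, mul_ite,
        mul_zero, Finset.sum_ite_eq', Finset.mem_univ, if_true] at h2
      exact le_of_mul_le_mul_right (by linarith) hε
    have h2 : cell K y ψ i ⊆ ⋃ n, S n := by
      intro x hx
      have : ∀ᶠ n : ℕ in atTop, ∀ j, j ≠ i → aff y ψ j x + 1 / (n + 1) ≤ aff y ψ i x := by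
        simp only [eventually_all]
        intro j hj
        filter_upwards [tendsto_one_div_add_atTop_nhds_zero_nat.eventually
          (gt_mem_nhds (sub_pos.2 (hx.2 j hj)))] with n hn
        linarith
      obtain ⟨n, hn⟩ := this.exists
      exact mem_iUnion.2 ⟨n, hx.1, hn⟩
    refine ENNReal.toReal_le_of_le_ofReal (m0 i).le ((measure_mono h2).trans ?_)
    have h3 : Monotone S := fun n k hnk x hx => ⟨hx.1, fun j hj => le_trans
      (add_le_add_right (Nat.one_div_le_one_div hnk) _) (hx.2 j hj)⟩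
    rw [h3.measure_iUnion]
    exact iSup_le fun n => (ENNReal.le_ofReal_iff_toReal_le (measure_ne_top _ _) (m0 i).le).2 (h1 n)
  have hsum : ∑ i, (un K).real (cell K y ψ i) = ∑ i, m i := by
    have := sum_cells h hy ψ (integrable_const (1 : ℝ))
    simpa [hm] using this
  exact ⟨ψ, fun i => (Finset.sum_eq_sum_iff_of_le fun i _ => hle i).1 hsum i (Finset.mem_univ _)⟩

theorem unique (h : Body K R) (hy : Function.Injective y) (m0 : ∀ i, 0 < m i)
    (ho : Opt K m y ψ) (hJ : Jf K m y ψ' ≤ Jf K m y ψ) : ∃ c, ∀ i, ψ i - ψ' i = c := by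
  have := h.prob
  have h1 : ∀ i, ∀ᵐ x ∂un K, x ∈ cell K y ψ i → pot y ψ' x - pot y ψ x = ψ i - ψ' i := by
    have h2 : ∀ i ∈ Finset.univ, ∫ x in cell K y ψ i, aff y ψ' i x ∂un K ≤
        ∫ x in cell K y ψ i, pot y ψ' x ∂un K := fun i _ =>
      integral_mono (h.intg (aff_cont ..)).integrableOn (h.intg (pot_cont ..)).integrableOn
        fun x => aff_le ..
    have h3 := (Finset.sum_eq_sum_iff_of_le h2).1 (le_antisymm (Finset.sum_le_sum h2) (by
      rw [J_eq h hy ho, ← int_aff h ho y ψ', Jf, ← sum_cells h hy ψ (h.intg (pot_cont ..))] at hJ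
      linarith))
    intro i
    have h4 := (integral_eq_iff_of_ae_le (h.intg (aff_cont ..)).integrableOn
      (h.intg (pot_cont ..)).integrableOn (Eventually.of_forall fun x => aff_le ..)).1
      (h3 i (Finset.mem_univ _))
    filter_upwards [(ae_restrict_iff' (cell_meas h y ψ i)).1 h4] with x hx hx'
    rw [← hx hx', pot_eq hx']
    unfold aff; ring
  let u : E d → ℝ := fun x => pot y ψ' x - pot y ψ x
  have hu : Continuous u := by fun_prop
  have hF : (range fun i => ψ i - ψ' i).Finite := finite_range _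
  have h2 : interior K ⊆ u ⁻¹' range fun i => ψ i - ψ' i := by
    have h3 : ∀ᵐ x, x ∈ K → x ∈ u ⁻¹' range fun i => ψ i - ψ' i := h.ae' (by
      filter_upwards [ae_all_iff.2 h1, ae_cell h hy ψ] with x hx ⟨i, hi⟩ using ⟨i, (hx i hi).symm⟩)
    rw [← sdiff_eq_empty, ← (isOpen_interior.sdiff (hF.isClosed.preimage hu)).measure_eq_zero_iff
      volume]
    exact measure_mono_null (fun x hx (h : x ∈ K → _) => hx.2 (h (interior_subset hx.1)))
      (ae_iff.1 h3)
  have h3 : u '' K ⊆ range fun i => ψ i - ψ' i := by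
    rw [image_subset_iff]
    refine subset_closure.trans ?_
    rw [← h.cvx.closure_interior_eq_closure_of_nonempty_interior h.int]
    exact (hF.isClosed.preimage hu).closure_subset_iff.2 h2
  have h4 := hF.countable.isTotallyDisconnected _ h3
    (h.cvx.isPreconnected.image u hu.continuousOn)
  obtain ⟨x0, hx0⟩ := h.int
  refine ⟨u x0, fun i => ?_⟩
  have h5 : un K (cell K y ψ i) ≠ 0 := fun e => by
    have := ho i
    rw [measureReal_def, e] at this
    exact (m0 i).ne this
  obtain ⟨x, hx, hx'⟩ := Measure.exists_mem_of_measure_ne_zero_of_ae h5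
    (ae_restrict_of_ae (h1 i))
  rw [← hx' hx]
  exact h4 (mem_image_of_mem u hx.1) (mem_image_of_mem u (interior_subset hx0))

theorem near (h : Body K R) (hy : Function.Injective y) (m0 : ∀ i, 0 < m i)
    (hm : ∑ i, m i = 1) (ho : Opt K m y ψ) {g : I → ℝ} (hg : ∑ i, g i = 0) {η : ℝ} (hη : 0 < η) :
    ∃ γ > 0, ∀ ψ', Jf K m y ψ' < Jf K m y ψ + γ → ∑ i, g i * (ψ' i - ψ i) < η := by
  obtain ⟨S, hS, hS'⟩ := box h m0 hm y (Jf K m y ψ + 1)
  have hc : IsCompact (S ∩ {ψ' | η ≤ ∑ i, g i * (ψ' i - ψ i)}) :=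
    hS.inter_right (isClosed_le continuous_const (by fun_prop))
  have h1 : ∀ ψ' ∈ S ∩ {ψ' | η ≤ ∑ i, g i * (ψ' i - ψ i)}, Jf K m y ψ < Jf K m y ψ' := by
    intro ψ' hψ'
    by_contra h2
    obtain ⟨c, hc⟩ := unique h hy m0 ho (not_lt.1 h2)
    have h3 : η ≤ ∑ i, g i * (ψ' i - ψ i) := hψ'.2
    simp only [← neg_sub (ψ _), hc, ← Finset.sum_mul, hg, zero_mul] at h3
    linarith
  obtain ⟨a, ha, ha'⟩ := hc.exists_forall_le' (J_cont h m y).continuousOn h1
  refine ⟨min 1 (a - Jf K m y ψ), lt_min one_pos (sub_pos.2 ha), fun ψ' hψ' => ?_⟩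
  obtain ⟨t, ht⟩ := hS' ψ' (by linarith [min_le_left 1 (a - Jf K m y ψ)])
  by_contra h2
  have := ha' _ ⟨ht, by
    simp only [mem_ofPred_eq, sub_right_comm _ t, mul_sub _ _ t, Finset.sum_sub_distrib,
      ← Finset.sum_mul, hg]
    simpa using h2⟩
  rw [J_shift h hm] at this
  linarith [min_le_right 1 (a - Jf K m y ψ)]

end Vale.Agent.P074
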