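import Vale.Agent.P074.Cell

/-!
Stability of the moments of cells with respect to their masses.
-/

namespace Vale.Agent.P074

open MeasureTheory Set Real
open scoped ENNReal

variable {d : ℕ}

theorem un_prob {K : Set (E d)} (hK : IsCompact K) (h0 : volume K ≠ 0) :
    IsProbabilityMeasure (un K) :=
  ⟨by rw [un, Measure.smul_apply, Measure.restrict_apply_univ, smul_eq_mul,
    ENNReal.inv_mul_cancel h0 hK.measure_lt_top.ne]⟩

theorem stab {K : Set (E d)} (hK : IsCompact K) (h0 : volume K ≠ 0) {R : ℝ} (hR : 0 < R)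
    (hKR : ∀ x ∈ K, ‖x‖ ≤ R) {I : Type} [Fintype I] {A B C : I → Set (E d)}
    (hA : ∀ i, MeasurableSet (A i)) (hB : ∀ i, MeasurableSet (B i))
    (hC : ∀ i, MeasurableSet (C i)) (hAK : ∀ i, A i ⊆ K) (hBK : ∀ i, B i ⊆ K)
    (hCK : ∀ i, C i ⊆ K) (H : ∀ i, ∀ x ∈ A i, ∀ y ∈ B i, (1 / 2 : ℝ) • (x + y) ∈ C i)
    (sA : ∀ f : E d → ℝ, Continuous f → ∑ i, ∫ x in A i, f x ∂un K = ∫ x, f x ∂un K)
    (sB : ∀ f : E d → ℝ, Continuous f → ∑ i, ∫ x in B i, f x ∂un K = ∫ x, f x ∂un K)
    (sC : Pairwise (Function.onFun Disjoint C)) {a b : I → ℝ}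
    (ha : ∀ i, (un K).real (A i) = a i) (hb : ∀ i, (un K).real (B i) = b i) (a0 : ∀ i, 0 < a i)
    (hab1 : ∀ i, a i / 2 ≤ b i) (hab2 : ∀ i, b i ≤ 3 * a i / 2) (v : I → E d) {s : ℝ}
    (hs : 0 < s) :
    ∑ i, ((∫ x in A i, inner ℝ x (v i) ∂un K) - ∫ x in B i, inner ℝ x (v i) ∂un K) ≤
      12 * (∑ i, (b i - a i) ^ 2 / a i) / s + 26000 * R ^ 2 * s * ∑ i, a i * ‖v i‖ ^ 2 := by
  have := un_prob hK h0
  obtain ⟨c, hc, hcR⟩ : ∃ c : ℝ, 0 < c ∧ c * R ^ 2 = 1 / 1920 :=
    ⟨1 / (1920 * R ^ 2), by positivity, by field_simp⟩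
  have hcR' : c * R ^ 2 ≤ 1 / 2 := by rw [hcR]; norm_num
  have hw := gw_cont (d := d) c
  have w0 : ∀ x : E d, 0 ≤ gw c x := fun x => (exp_pos _).le
  have we : ∀ x : E d, gw c x * exp (c * ‖x‖ ^ 2) = 1 := fun x => by
    rw [gw, ← exp_add]; simp
  have bnd : ∀ S : Set (E d), MeasurableSet S → S ⊆ K →
      (un K).real S / 2 ≤ ∫ x in S, gw c x ∂un K ∧ ∫ x in S, gw c x ∂un K ≤ (un K).real S := by
    intro S hS hSK
    constructor
    · have := setIntegral_mono_on (μ := un K) (s := S) (f := fun _ => (1 / 2 : ℝ)) (g := gw c)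
        (intOn hK h0 continuous_const) (intOn hK h0 hw) hS fun x hx => by
          have h1 := (lip_exp hc hcR' (hKR x (hSK hx)) (hKR x (hSK hx))).1
          have h2 := we x
          nlinarith [w0 x]
      simp only [integral_const, MeasurableSet.univ, measureReal_restrict_apply, univ_inter,
        smul_eq_mul] at this
      linarith
    · have := setIntegral_mono_on (μ := un K) (s := S) (g := fun _ => (1 : ℝ)) (f := gw c)
        (intOn hK h0 hw) (intOn hK h0 continuous_const) hS fun x hx =>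
          exp_le_one_iff.2 (neg_nonpos.2 (by positivity))
      simpa using this
  set α : I → ℝ := fun i => ∫ x in A i, gw c x ∂un K with hα
  set β : I → ℝ := fun i => ∫ x in B i, gw c x ∂un K with hβ
  have b1 : ∀ i, a i / 2 ≤ α i := fun i => ha i ▸ (bnd _ (hA i) (hAK i)).1
  have b2 : ∀ i, α i ≤ a i := fun i => ha i ▸ (bnd _ (hA i) (hAK i)).2
  have b3 : ∀ i, b i / 2 ≤ β i := fun i => hb i ▸ (bnd _ (hB i) (hBK i)).1
  have b4 : ∀ i, β i ≤ b i := fun i => hb i ▸ (bnd _ (hB i) (hBK i)).2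
  have α0 : ∀ i, 0 < α i := fun i => by linarith [b1 i, a0 i]
  have β0 : ∀ i, 0 < β i := fun i => by linarith [b3 i, a0 i, hab1 i]
  have al := fun i => alg1 (a0 i) (hab1 i) (hab2 i) (b1 i) (b2 i) (b3 i) (b4 i)
  set Q := ∑ i, (α i - β i) ^ 2 / a i with hQ
  have key : ∀ (t : I → E d → ℝ) (l L : I → ℝ), (∀ i, Continuous (t i)) →
      (∀ i, ∀ x ∈ K, ∀ y ∈ K, t i x * exp (c * ‖x‖ ^ 2) - t i y * exp (c * ‖y‖ ^ 2) ≤
        L i * ‖x - y‖) →
      ∑ i, √(α i * β i) * (l i * ((∫ x in A i, t i x ∂un K) / α i -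
        (∫ x in B i, t i x ∂un K) / β i) / 2 - (l i * L i) ^ 2 / (4 * c)) ≤ Q := by
    intro t l L ht hL
    have h1 : ∀ i, √(α i * β i) * (1 + l i * ((∫ x in A i, t i x ∂un K) / α i -
        (∫ x in B i, t i x ∂un K) / β i) / 2 - (l i * L i) ^ 2 / (4 * c)) ≤
        ∫ x in C i, gw c x ∂un K := by
      intro i
      have := cell1 hK h0 (hA i) (hB i) (hC i) (hAK i) (hBK i) (hCK i) (H i) hc
        (a := fun x => l i * (t i x * exp (c * ‖x‖ ^ 2))) (by have := ht i; fun_prop)
        (L := |l i| * L i) (fun x hx y hy => by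
          rw [← mul_sub, mul_assoc]
          refine (le_abs_self _).trans ?_
          rw [abs_mul]
          refine mul_le_mul_of_nonneg_left (abs_le.2 ⟨?_, hL i x hx y hy⟩) (abs_nonneg _)
          have := hL i y hy x hx
          rw [norm_sub_rev] at this
          linarith) (α0 i) (β0 i)
      have e : ∀ x, gw c x * (l i * (t i x * exp (c * ‖x‖ ^ 2))) = l i * t i x := fun x => by
        linear_combination (l i * t i x) * we x
      simp only [e, integral_const_mul, mul_pow, sq_abs] at this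
      rw [mul_pow, mul_sub (l i), ← mul_div_assoc, ← mul_div_assoc]
      exact this
    have h2 : ∑ i, ∫ x in C i, gw c x ∂un K ≤ ∑ i, (α i + β i) / 2 := by
      rw [← Finset.sum_div, Finset.sum_add_distrib, sA _ hw, sB _ hw, add_self_div_two,
        ← integral_iUnion_fintype hC sC fun i => intOn hK h0 hw]
      exact setIntegral_le_integral (integrableOn_univ.1 (intOn hK h0 hw))
        (Filter.Eventually.of_forall w0)
    have h3 := (Finset.sum_le_sum fun i (_ : i ∈ Finset.univ) => h1 i).trans h2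
    have h4 := Finset.sum_le_sum fun i (_ : i ∈ Finset.univ) => (al i).2.1
    simp only [add_sub_assoc, mul_add, mul_one, Finset.sum_add_distrib] at h3
    rw [Finset.sum_sub_distrib] at h4
    linarith
  have u1 : Q ≤ 4 * ∑ i, (b i - a i) ^ 2 / a i := by
    have h1 := key (fun _ _ => 1) (fun i => 120 * (a i / α i - b i / β i)) (fun _ => 4 * c * R)
      (fun _ => continuous_const) fun i x hx y hy => by
        simpa using (lip_exp hc hcR' (hKR x hx) (hKR y hy)).2
    simp only [integral_const, MeasurableSet.univ, measureReal_restrict_apply, univ_inter,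
      smul_eq_mul, mul_one, ha, hb] at h1
    have h2 : ∑ i, 10 * (a i * (a i / α i - b i / β i) ^ 2) ≤ Q := by
      refine le_trans (Finset.sum_le_sum fun i _ => ?_) h1
      generalize a i / α i - b i / β i = D
      have : 120 * D * D / 2 - (120 * D * (4 * c * R)) ^ 2 / (4 * c) = 30 * D ^ 2 := by
        have : (120 * D * (4 * c * R)) ^ 2 / (4 * c) = 57600 * D ^ 2 * (c * R ^ 2) := by
          field_simp; ring
        rw [this, hcR]; ring
      rw [this]
      nlinarith [(al i).1, sq_nonneg D]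
    have h3 := Finset.sum_le_sum fun i (_ : i ∈ Finset.univ) => (al i).2.2
    rw [Finset.sum_add_distrib, ← Finset.mul_sum, ← Finset.mul_sum] at h3
    rw [← Finset.mul_sum] at h2
    linarith
  have h1 := key (fun i x => inner ℝ x (v i)) (fun i => s * α i / √(α i * β i))
    (fun i => 3 * ‖v i‖) (fun _ => by fun_prop) fun i x hx y hy => by
      obtain ⟨e1, e2⟩ := lip_exp hc hcR' (hKR x hx) (hKR y hy)
      have e3 := (lip_exp hc hcR' (hKR y hy) (hKR x hx)).2
      rw [norm_sub_rev] at e3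
      have e4 : |inner ℝ x (v i) - inner ℝ y (v i)| ≤ ‖x - y‖ * ‖v i‖ := by
        rw [← inner_sub_left]; exact abs_real_inner_le_norm _ _
      have e5 : |inner ℝ y (v i)| ≤ R * ‖v i‖ := (abs_real_inner_le_norm _ _).trans
        (mul_le_mul_of_nonneg_right (hKR y hy) (norm_nonneg _))
      have e6 : (inner ℝ x (v i) - inner ℝ y (v i)) * exp (c * ‖x‖ ^ 2) ≤ ‖x - y‖ * ‖v i‖ * 2 :=
        (mul_le_mul_of_nonneg_right (le_abs_self _) (exp_pos _).le).trans
          (mul_le_mul e4 e1 (exp_pos _).le (by positivity))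
      have e7 : inner ℝ y (v i) * (exp (c * ‖x‖ ^ 2) - exp (c * ‖y‖ ^ 2)) ≤
          R * ‖v i‖ * (4 * c * R * ‖x - y‖) := by
        refine (le_abs_self _).trans ?_
        rw [abs_mul]
        exact mul_le_mul e5 (abs_le.2 ⟨by linarith, e2⟩) (abs_nonneg _) (by positivity)
      have e8 : R * ‖v i‖ * (4 * c * R * ‖x - y‖) = 4 * (c * R ^ 2) * (‖x - y‖ * ‖v i‖) := by ring
      rw [e8, hcR] at e7
      have : 0 ≤ ‖x - y‖ * ‖v i‖ := by positivity
      nlinarith
  have h2 : ∀ i, ((∫ x in A i, inner ℝ x (v i) ∂un K) - ∫ x in B i, inner ℝ x (v i) ∂un K) ≤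
      2 / s * (√(α i * β i) * (s * α i / √(α i * β i) *
        ((∫ x in A i, inner ℝ x (v i) ∂un K) / α i - (∫ x in B i, inner ℝ x (v i) ∂un K) / β i) / 2
          - (s * α i / √(α i * β i) * (3 * ‖v i‖)) ^ 2 / (4 * c))) +
      1 / s * ((α i - β i) ^ 2 / a i) + 26000 * R ^ 2 * s * (a i * ‖v i‖ ^ 2) := by
    intro i
    have e1 : |∫ x in B i, inner ℝ x (v i) ∂un K| ≤ R * ‖v i‖ * b i := by
      rw [← hb, ← Real.norm_eq_abs]
      refine norm_setIntegral_le_of_norm_le_const (measure_lt_top _ _) fun x hx => ?_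
      exact (abs_real_inner_le_norm _ _).trans
        (mul_le_mul_of_nonneg_right (hKR x (hBK i hx)) (norm_nonneg _))
    generalize ∫ x in A i, inner ℝ x (v i) ∂un K = NA at *
    generalize ∫ x in B i, inner ℝ x (v i) ∂un K = NB at *
    have r3 := (al i).1
    have := a0 i; have := α0 i; have := β0 i
    have r0 : 0 < √(α i * β i) := by positivity
    generalize √(α i * β i) = r at *
    have hc' : c = 1 / (1920 * R ^ 2) := by field_simp; linarith
    have e2 : 2 / s * (r * (s * α i / r * (NA / α i - NB / β i) / 2 -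
        (s * α i / r * (3 * ‖v i‖)) ^ 2 / (4 * c))) =
        NA - NB - NB / β i * (α i - β i) - 8640 * R ^ 2 * s * ‖v i‖ ^ 2 * (α i ^ 2 / r) := by
      rw [hc']; field_simp; ring
    have e3 : α i ^ 2 / r ≤ 3 * a i := by
      rw [div_le_iff₀ r0]; nlinarith [b2 i]
    have e4 : |NB / β i| ≤ 2 * R * ‖v i‖ := by
      rw [abs_div, abs_of_pos (β0 i), div_le_iff₀ (β0 i)]
      have : 0 ≤ R * ‖v i‖ := by positivity
      nlinarith [b3 i]
    have e5 : NB / β i * (α i - β i) ≤
        1 / s * ((α i - β i) ^ 2 / a i) + R ^ 2 * s * (a i * ‖v i‖ ^ 2) := by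
      refine (le_abs_self _).trans ?_
      rw [abs_mul, ← sq_abs (α i - β i)]
      refine (mul_le_mul_of_nonneg_right e4 (abs_nonneg _)).trans ?_
      generalize |α i - β i| = z
      have : 1 / s * (z ^ 2 / a i) + R ^ 2 * s * (a i * ‖v i‖ ^ 2) - 2 * R * ‖v i‖ * z =
          (z - R * s * a i * ‖v i‖) ^ 2 / (s * a i) := by field_simp; ring
      have : 0 ≤ (z - R * s * a i * ‖v i‖) ^ 2 / (s * a i) := by positivity
      linarith
    have e6 := mul_le_mul_of_nonneg_left e3 (show 0 ≤ 8640 * R ^ 2 * s * ‖v i‖ ^ 2 by positivity)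
    have e7 : 0 ≤ R ^ 2 * s * (a i * ‖v i‖ ^ 2) := by positivity
    rw [e2]
    nlinarith
  refine (Finset.sum_le_sum fun i _ => h2 i).trans ?_
  simp only [Finset.sum_add_distrib, ← Finset.mul_sum]
  have h3 := mul_le_mul_of_nonneg_left (h1.trans u1) (show 0 ≤ 2 / s by positivity)
  have h4 := mul_le_mul_of_nonneg_left u1 (show 0 ≤ 1 / s by positivity)
  have h5 : 12 * (∑ i, (b i - a i) ^ 2 / a i) / s = 2 / s * (4 * ∑ i, (b i - a i) ^ 2 / a i) +
    1 / s * (4 * ∑ i, (b i - a i) ^ 2 / a i) := by ring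
  linarith

end Vale.Agent.P074
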